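import Vale.Agent.Lib.P064W.Combine
import Vale.Agent.Lib.P064Q.FinalQ

/-!
The embedding bound and the thresholds (notes/P064W_blueprint.md, part FI).
-/

open Finset

namespace Vale.Agent.Lib.P064W

open Vale.Agent.Lib.P064 Vale.Agent.Lib.P064E Vale.Agent.Lib.P064U Vale.Agent.Lib.P064Q
open scoped Classical

variable {V : Type} [Fintype V] {H : SimpleGraph V} {n : ℕ} {q l lam : ℝ}

/-- Copy the proof of `embBound_Q` (Lib/P064Q/Final1.lean) with `conn_boundW`: `v ≤ 2 e`, `(I + 1)^v ≤ (I + 1)^(2 e)`. -/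
theorem embBound_W (hG : GoodDensity n q H) {Δ A₁ : ℝ} {s₁ I : ℕ} (hn : 2 ≤ n)
    (hV : Fintype.card V ≤ n) (hp : QPar n q l lam Δ A₁ s₁ I) (hA8 : A₁ ≤ 8192 * ((n : ℝ) * q))
    (hqe : q ≤ Real.exp (-1)) (hL4 : 4 ≤ Real.log n)
    (hD2 : (Real.exp 1 * ((n : ℝ) * q)) ^ 2 < n) (hκ : spKap n q ≤ 1) (hg : 100 * (l - lam) ≤ l) :
    EmbBound n H (Real.exp 1000 * ((I : ℝ) + 1) ^ 2 *
      Real.exp (13 / 50 * Real.log (2 * Δ)) * q) := by
  intro β _ G hiso hvn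
  have hq0 : 0 < q := hp.std.q0
  obtain ⟨X, hX⟩ : ∃ X, X = Real.exp (13 / 50 * Real.log (2 * Δ)) := ⟨_, rfl⟩
  have hX0 : 0 < X := by rw [hX]; exact Real.exp_pos _
  obtain ⟨J, hJ⟩ : ∃ J : ℝ, J = (I : ℝ) + 1 := ⟨_, rfl⟩
  have hJ1 : 1 ≤ J := by
    have : (0 : ℝ) ≤ I := Nat.cast_nonneg _
    rw [hJ]; linarith
  have hJ0 : 0 < J := by linarith
  obtain ⟨K, hK⟩ : ∃ K, K = J ^ 2 * X := ⟨_, rfl⟩
  have hK0 : 0 < K := by rw [hK]; positivity
  have hn0 : (0 : ℝ) ≤ n := Nat.cast_nonneg _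
  have hBd : 0 ≤ Real.exp 610 * K * q := by positivity
  have hmain : ((emb G H).card : ℝ) ≤
      (Real.exp 610 * K * q) ^ (eIn G univ).card * (n : ℝ) ^ Fintype.card β := by
    refine emb_components (H := H) (n := n) hBd ?_ β G hiso
    intro γ _ G' hne hiso' hconn
    have := hne
    have h := conn_boundW (H := H) hG hn hV hp hA8 hqe hL4 hD2 hκ hg G' hiso' hconn
    refine h.trans ?_
    rw [← hJ]
    obtain ⟨e, he⟩ : ∃ e, e = (eIn G' univ).card := ⟨_, rfl⟩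
    obtain ⟨v, hv⟩ : ∃ v, v = Fintype.card γ := ⟨_, rfl⟩
    rw [← he, ← hv]
    have hve : v ≤ 2 * e := by
      rw [hv, he]
      exact (vertices_le_darts hiso').trans darts_card_le
    have hve' : (v : ℝ) ≤ 2 * (e : ℝ) := by exact_mod_cast hve
    have h1 : J ^ v ≤ (J ^ 2) ^ e := by
      rw [← pow_mul]
      exact pow_le_pow_right₀ hJ1 hve
    have h3e : (3 : ℝ) ≤ Real.exp 2 := by
      have h0 : Real.exp 2 = Real.exp 1 ^ 2 := by
        rw [← Real.exp_nat_mul]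
        norm_num
      rw [h0]
      have h1 := Real.add_one_le_exp (1 : ℝ)
      nlinarith
    have h3 : (3 : ℝ) ^ v ≤ Real.exp 2 ^ v := pow_le_pow_left₀ (by norm_num) h3e v
    have hexp : Real.exp 2 ^ v * Real.exp (200 * ((v : ℝ) + (e : ℝ))) ≤ Real.exp 610 ^ e := by
      rw [← Real.exp_nat_mul, ← Real.exp_nat_mul, ← Real.exp_add]
      apply Real.exp_le_exp.2
      have he0 : (0 : ℝ) ≤ e := Nat.cast_nonneg _
      nlinarith
    have hXe : Real.exp (13 / 50 * Real.log (2 * Δ) * (e : ℝ)) = X ^ e := by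
      rw [hX, ← Real.exp_nat_mul]
      congr 1
      ring
    rw [hXe]
    have hP0 : 0 ≤ (n : ℝ) ^ v * q ^ e := by positivity
    calc J ^ v * (3 : ℝ) ^ v * Real.exp (200 * ((v : ℝ) + (e : ℝ))) * X ^ e * ((n : ℝ) ^ v * q ^ e)
        = J ^ v * ((3 : ℝ) ^ v * Real.exp (200 * ((v : ℝ) + (e : ℝ)))) * (X ^ e * ((n : ℝ) ^ v * q ^ e)) := by ring
      _ ≤ (J ^ 2) ^ e * (Real.exp 610 ^ e) * (X ^ e * ((n : ℝ) ^ v * q ^ e)) := by
          apply mul_le_mul_of_nonneg_right _ (by positivity)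
          apply mul_le_mul h1 _ (by positivity) (by positivity)
          calc (3 : ℝ) ^ v * Real.exp (200 * ((v : ℝ) + (e : ℝ)))
              ≤ Real.exp 2 ^ v * Real.exp (200 * ((v : ℝ) + (e : ℝ))) :=
                mul_le_mul_of_nonneg_right h3 (Real.exp_pos _).le
            _ ≤ _ := hexp
      _ = (Real.exp 610 * K * q) ^ e * (n : ℝ) ^ v := by
          rw [hK, mul_pow, mul_pow, mul_pow]
          ring
  refine hmain.trans ?_
  have hEq : Real.exp 1000 * ((I : ℝ) + 1) ^ 2 * Real.exp (13 / 50 * Real.log (2 * Δ)) * q =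
      Real.exp 1000 * K * q := by
    rw [hK, hJ, hX]
    ring
  rw [hEq]
  set e := (eIn G univ).card with he
  set v := Fintype.card β with hv
  have hve : v ≤ 2 * e := (vertices_le_darts hiso).trans darts_card_le
  have hnd := pow_le_exp_descFactorial hvn
  set d : ℝ := (n.descFactorial v : ℝ) with hd
  have hd0 : 0 ≤ d := Nat.cast_nonneg _
  have hE1 : 1 ≤ Real.exp 1 := Real.one_le_exp (by norm_num)
  have hpow : Real.exp 1 ^ v ≤ Real.exp 2 ^ e := by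
    have h1 : Real.exp 2 ^ e = Real.exp 1 ^ (2 * e) := by
      have h0 : Real.exp 2 = Real.exp 1 ^ 2 := by
        rw [← Real.exp_nat_mul]
        norm_num
      rw [h0, ← pow_mul]
    rw [h1]
    exact pow_le_pow_right₀ hE1 hve
  have hb0 : 0 ≤ (Real.exp 610 * K * q) ^ e := by positivity
  calc (Real.exp 610 * K * q) ^ e * (n : ℝ) ^ v
      ≤ (Real.exp 610 * K * q) ^ e * (Real.exp 1 ^ v * d) :=
        mul_le_mul_of_nonneg_left hnd hb0
    _ ≤ (Real.exp 610 * K * q) ^ e * (Real.exp 2 ^ e * d) := by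
        gcongr
    _ = (Real.exp 612 * K * q) ^ e * d := by
        have h16 : Real.exp 612 = Real.exp 610 * Real.exp 2 := by
          rw [← Real.exp_add]
          norm_num
        rw [h16]
        have : Real.exp 610 * Real.exp 2 * K * q = (Real.exp 610 * K * q) * Real.exp 2 := by ring
        rw [this, mul_pow]
        ring
    _ ≤ (Real.exp 1000 * K * q) ^ e * d := by
        have h : Real.exp 612 ≤ Real.exp 1000 := Real.exp_le_exp.2 (by norm_num)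
        gcongr

/-- The numerics behind `exists_qparW`. -/
private lemma num_qparW {L : ℝ} (hL : 10000 ≤ L) :
    1 ≤ Real.log (4 * L) ∧ 24 * (1 + Real.log (4 * L)) ^ 2 + Real.log (4 * L) + 1 ≤ L ∧
      100 * Real.log (4 * L) ≤ L ∧ 4 * Real.log (300 * L) ^ 2 + Real.log (300 * L) ≤ L ∧
      1 ≤ Real.log (300 * L) := by
  have hL0 : 0 < L := by linarith
  obtain ⟨u, hu⟩ : ∃ u, u = Real.sqrt L := ⟨_, rfl⟩
  have hu2 : u ^ 2 = L := by rw [hu]; exact Real.sq_sqrt hL0.le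
  have hu0 : 0 < u := by rw [hu]; exact Real.sqrt_pos.2 hL0
  have hu100 : 100 ≤ u := by
    rw [hu]
    apply Real.le_sqrt_of_sq_le
    linarith
  have hlog2 := Real.log_two_lt_d9
  have hlog2' : 0 < Real.log 2 := Real.log_pos (by norm_num)
  have h4 : Real.log 4 ≤ 2 * Real.log 2 := by
    have : Real.log 4 ≤ Real.log (2 ^ 2) := Real.log_le_log (by norm_num) (by norm_num)
    rw [Real.log_pow] at this
    simpa using this
  have h300 : Real.log 300 ≤ 9 * Real.log 2 := by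
    have : Real.log 300 ≤ Real.log (2 ^ 9) := Real.log_le_log (by norm_num) (by norm_num)
    rw [Real.log_pow] at this
    simpa using this
  have h100 : Real.log 100 ≤ 7 * Real.log 2 := by
    have : Real.log 100 ≤ Real.log (2 ^ 7) := Real.log_le_log (by norm_num) (by norm_num)
    rw [Real.log_pow] at this
    simpa using this
  have hlogu : Real.log u ≤ Real.log 100 + (u / 100 - 1) := by
    have h1 : Real.log (u / 100) ≤ u / 100 - 1 :=
      Real.log_le_sub_one_of_pos (by positivity)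
    rw [Real.log_div hu0.ne' (by norm_num)] at h1
    linarith
  have hy : Real.log (4 * L) = Real.log 4 + 2 * Real.log u := by
    rw [← hu2, Real.log_mul (by norm_num) (by positivity), Real.log_pow]
    norm_num
  have hx : Real.log (300 * L) = Real.log 300 + 2 * Real.log u := by
    rw [← hu2, Real.log_mul (by norm_num) (by positivity), Real.log_pow]
    norm_num
  have hy1 : 1 ≤ Real.log (4 * L) := by
    rw [Real.le_log_iff_exp_le (by positivity)]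
    have h1 := Real.exp_one_lt_d9
    linarith
  have hx1 : 1 ≤ Real.log (300 * L) := by
    rw [Real.le_log_iff_exp_le (by positivity)]
    have h1 := Real.exp_one_lt_d9
    linarith
  -- 1 + y ≤ 13/100 u
  have hyu : 1 + Real.log (4 * L) ≤ 13 / 100 * u := by
    rw [hy]
    linarith
  have hxu : Real.log (300 * L) ≤ u / 4 := by
    rw [hx]
    linarith
  have hsq : (1 + Real.log (4 * L)) ^ 2 ≤ (13 / 100 * u) ^ 2 :=
    pow_le_pow_left₀ (by linarith) hyu 2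
  have hsqx : Real.log (300 * L) ^ 2 ≤ (u / 4) ^ 2 := pow_le_pow_left₀ (by linarith) hxu 2
  have hLu : u ≤ L / 100 := by
    rw [← hu2]
    nlinarith
  refine ⟨hy1, ?_, ?_, ?_, hx1⟩
  · have h5 : (13 / 100 * u) ^ 2 = 169 / 10000 * L := by
      rw [← hu2]
      ring
    rw [h5] at hsq
    linarith
  · have h6 : 100 * (13 / 100 * u) ≤ L := by
      rw [← hu2]
      nlinarith
    linarith
  · have h5 : (u / 4) ^ 2 = L / 16 := by
      rw [← hu2]
      ring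
    rw [h5] at hsqx
    linarith

/-- The exponential beats the square. -/
private lemma num_sq {L : ℝ} (hL : 10000 ≤ L) : (Real.exp 1 * (4 * L)) ^ 2 < Real.exp L := by
  have hL0 : 0 < L := by linarith
  have h1 : L / 3 + 1 ≤ Real.exp (L / 3) := Real.add_one_le_exp _
  have h3 : Real.exp L = Real.exp (L / 3) ^ 3 := by
    rw [← Real.exp_nat_mul]
    congr 1
    push_cast
    ring
  have h2 : (L / 3) ^ 3 ≤ Real.exp (L / 3) ^ 3 :=
    pow_le_pow_left₀ (by positivity) (by linarith) 3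
  have hE : Real.exp 1 ^ 2 ≤ 8 := by
    have h1 := Real.exp_one_lt_d9
    have h2 := Real.exp_pos 1
    nlinarith
  have h4 : (Real.exp 1 * (4 * L)) ^ 2 = Real.exp 1 ^ 2 * (16 * L ^ 2) := by ring
  have hL2 : 0 < L ^ 2 := by positivity
  have h5 : Real.exp 1 ^ 2 * (16 * L ^ 2) ≤ 8 * (16 * L ^ 2) :=
    mul_le_mul_of_nonneg_right hE (by positivity)
  have h6 : 8 * (16 * L ^ 2) < (L / 3) ^ 3 := by
    have : (L / 3) ^ 3 = L / 27 * L ^ 2 := by ring
    rw [this]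
    nlinarith
  rw [h3, h4]
  linarith

/-- Parameters (as `exists_qpar` of Lib/P064Q/Final1.lean, with `I` minimal: `I = Nat.log 2 ⌈Δ⌉₊ + 1`): for `L = log n ≥ 10000`, `1 ≤ D = n q ≤ 4 L`.
Also `Δ ≤ exp 2 (D + L)`, `I` logarithmic, `q ≤ exp (-1)`, `(e D)^2 < n`, `spKap ≤ 1` (`g ≤ log (4 L)`, `spLam ≤ 2 + 2 log (4 L)`, `lam ≥ L - log (4 L)`), `100 g ≤ L`.  Numerics as `num_qpar`. -/
theorem exists_qparW (hn : 2 ≤ n) (hL : 10000 ≤ Real.log n) {q : ℝ} (hD1 : 1 ≤ (n : ℝ) * q)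
    (hD2 : (n : ℝ) * q ≤ 4 * Real.log n) :
    ∃ (l lam Δ A₁ : ℝ) (s₁ I : ℕ), QPar n q l lam Δ A₁ s₁ I ∧ A₁ ≤ 8192 * ((n : ℝ) * q) ∧
      Δ ≤ Real.exp 2 * ((n : ℝ) * q + Real.log n) ∧ (I : ℝ) ≤ 2 + 2 * Real.log (2 * Δ) ∧
      q ≤ Real.exp (-1) ∧ (Real.exp 1 * ((n : ℝ) * q)) ^ 2 < n ∧ spKap n q ≤ 1 ∧
      100 * (l - lam) ≤ l := by
  have hn0 : (0 : ℝ) < n := by
    have : (2 : ℝ) ≤ n := by exact_mod_cast hn
    linarith
  obtain ⟨L, hLdef⟩ : ∃ L, L = Real.log n := ⟨_, rfl⟩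
  obtain ⟨D, hD⟩ : ∃ D, D = (n : ℝ) * q := ⟨_, rfl⟩
  rw [← hLdef] at hL hD2 ⊢
  rw [← hD] at hD1 hD2 ⊢
  have hL0 : 0 < L := by linarith
  have hq0 : 0 < q := by
    by_contra hc
    push Not at hc
    have : (n : ℝ) * q ≤ 0 := mul_nonpos_of_nonneg_of_nonpos hn0.le hc
    rw [← hD] at this
    linarith
  have hD0 : 0 < D := by linarith
  obtain ⟨hy1, hyL, hy100, hxL, hx1⟩ := num_qparW hL
  obtain ⟨x, hx⟩ : ∃ x, x = Real.log (300 * L) := ⟨_, rfl⟩
  obtain ⟨y, hy⟩ : ∃ y, y = Real.log (4 * L) := ⟨_, rfl⟩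
  rw [← hx] at hxL hx1
  rw [← hy] at hy1 hyL hy100
  have hx0 : 0 ≤ x := by linarith
  have hlogD0 : 0 ≤ Real.log D := Real.log_nonneg hD1
  have hlogDy : Real.log D ≤ y := by
    rw [hy]
    exact Real.log_le_log hD0 hD2
  have hlogDx : Real.log D ≤ x := by
    have : y ≤ x := by
      rw [hy, hx]
      exact Real.log_le_log (by positivity) (by linarith)
    linarith
  have hlogD : Real.log D = L + Real.log q := by
    rw [hD, hLdef, Real.log_mul hn0.ne' hq0.ne']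
  have hx4 : x ≤ L / 5 := by nlinarith
  obtain ⟨m, hm1, hm2⟩ := exists_nat_pow_near (x := 4096 * D) (y := (2 : ℝ)) (by linarith) (by norm_num)
  have hE2 : Real.exp 2 ≤ 7.5 := by
    have h0 : Real.exp 2 = Real.exp 1 ^ 2 := by
      rw [← Real.exp_nat_mul]
      norm_num
    rw [h0]
    have h1 := Real.exp_one_lt_d9
    have h2 := Real.exp_pos 1
    nlinarith
  have hE0 : 0 < Real.exp 2 := Real.exp_pos 2
  have hE21 : 1 ≤ Real.exp 2 := Real.one_le_exp (by norm_num)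
  obtain ⟨Δ, hΔ⟩ : ∃ Δ, Δ = Real.exp 2 * (D + L) := ⟨_, rfl⟩
  have hΔ1 : 1 ≤ Δ := by
    rw [hΔ]
    nlinarith
  have hΔ0 : 0 < Δ := by linarith
  obtain ⟨I, hI⟩ : ∃ I, I = Nat.log 2 ⌈Δ⌉₊ + 1 := ⟨_, rfl⟩
  have hIlt : Δ < 2 ^ I := by
    have h1 : ⌈Δ⌉₊ < 2 ^ I := by
      rw [hI]
      exact Nat.lt_pow_succ_log_self (by norm_num) _
    have h2 : Δ ≤ (⌈Δ⌉₊ : ℝ) := Nat.le_ceil _
    have h3 : ((⌈Δ⌉₊ : ℕ) : ℝ) < ((2 ^ I : ℕ) : ℝ) := by exact_mod_cast h1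
    push_cast at h3
    linarith
  have hIle : (I : ℝ) ≤ 2 + 2 * Real.log (2 * Δ) := by
    have hne : ⌈Δ⌉₊ ≠ 0 := by
      have : 0 < ⌈Δ⌉₊ := Nat.ceil_pos.2 hΔ0
      omega
    have h1 : 2 ^ (Nat.log 2 ⌈Δ⌉₊) ≤ ⌈Δ⌉₊ := Nat.pow_log_le_self 2 hne
    have h2 : ((⌈Δ⌉₊ : ℕ) : ℝ) < Δ + 1 := Nat.ceil_lt_add_one hΔ0.le
    have h3 : ((2 ^ (Nat.log 2 ⌈Δ⌉₊) : ℕ) : ℝ) ≤ ((⌈Δ⌉₊ : ℕ) : ℝ) := by exact_mod_cast h1
    push_cast at h3
    have h4 : (2 : ℝ) ^ (Nat.log 2 ⌈Δ⌉₊) ≤ 2 * Δ := by linarith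
    have h5 := Real.log_le_log (by positivity) h4
    rw [Real.log_pow] at h5
    have hlog2 : (1 : ℝ) / 2 ≤ Real.log 2 := by
      have := Real.log_two_gt_d9
      linarith
    have hc0 : (0 : ℝ) ≤ (Nat.log 2 ⌈Δ⌉₊ : ℕ) := Nat.cast_nonneg _
    have h6 : ((Nat.log 2 ⌈Δ⌉₊ : ℕ) : ℝ) * (1 / 2) ≤ ((Nat.log 2 ⌈Δ⌉₊ : ℕ) : ℝ) * Real.log 2 :=
      mul_le_mul_of_nonneg_left hlog2 hc0
    have h7 : (I : ℝ) = ((Nat.log 2 ⌈Δ⌉₊ : ℕ) : ℝ) + 1 := by
      rw [hI]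
      push_cast
      ring
    rw [h7]
    linarith
  have hΔ8 : Real.log (8 * Δ) ≤ x := by
    rw [hx, hΔ]
    apply Real.log_le_log (by positivity)
    have h1 : D + L ≤ 5 * L := by linarith
    have h2 : Real.exp 2 * (D + L) ≤ 7.5 * (5 * L) :=
      mul_le_mul hE2 h1 (by linarith) (by norm_num)
    linarith
  have hlam : L - -Real.log q = Real.log D := by linarith
  have hlogq : Real.log q = Real.log D - L := by linarith
  refine ⟨L, -Real.log q, Δ, 2 ^ (m + 1), m + 1, I, ?_, ?_, ?_, hIle, ?_, ?_, ?_, ?_⟩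
  · refine
      { std :=
          { n1 := by omega
            l_eq := hLdef.symm ▸ rfl
            lam_eq := rfl
            q0 := hq0
            l1 := by linarith
            lam1 := by linarith
            lam_le := by linarith }
        D1 := by rw [← hD]; exact hD1
        s12 := ?_
        A₁eq := rfl
        Alow := ?_
        Δdeg := ?_
        ΔI := hIlt
        rho := by linarith
        N7 := ?_ }
    · by_contra hc
      push Not at hc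
      have h1 : (2 : ℝ) ^ (m + 1) ≤ 2 ^ 12 :=
        pow_le_pow_right₀ (by norm_num) (by omega)
      have h2 : (2 : ℝ) ^ 12 = 4096 := by norm_num
      rw [h2] at h1
      linarith
    · rw [← hD]
      exact hm2.le
    · rw [← hD, hΔ]
    · rw [hlam]
      have h2 : Real.log D * Real.log (8 * Δ) ≤ x * x :=
        mul_le_mul hlogDx hΔ8 (Real.log_nonneg (by linarith)) hx0
      nlinarith
  · rw [pow_succ]
    linarith
  · rw [hΔ]
  · -- q ≤ exp (-1)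
    rw [← Real.log_le_iff_le_exp hq0]
    linarith
  · -- (e D)^2 < n
    have h1 : (Real.exp 1 * D) ^ 2 ≤ (Real.exp 1 * (4 * L)) ^ 2 :=
      pow_le_pow_left₀ (by positivity)
        (mul_le_mul_of_nonneg_left hD2 (Real.exp_pos 1).le) 2
    have h2 := num_sq hL
    have h3 : Real.exp L = n := by
      rw [hLdef]
      exact Real.exp_log hn0
    rw [h3] at h2
    linarith
  · -- spKap ≤ 1
    have hG : spG n q = Real.log D := by
      rw [spG, ← hD]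
    have hlogL2 : Real.log (Real.log n + 2) ≤ y := by
      rw [← hLdef, hy]
      exact Real.log_le_log (by linarith) (by linarith)
    have hSL : spLam n q ≤ 2 + 2 * y := by
      rw [spLam, hG]
      linarith
    have hden : 0 < -Real.log q - 1 := by linarith
    rw [spKap, hG, div_le_one hden]
    have h1 : (Real.log D + 1) * (12 * (1 + Real.log D) + 6 * spLam n q) ≤
        (y + 1) * (12 * (1 + y) + 6 * (2 + 2 * y)) := by
      apply mul_le_mul (by linarith) (by linarith) _ (by linarith)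
      have hS0 : 0 ≤ spLam n q := by
        have h0 : 0 ≤ Real.log (Real.log n + 2) := by
          apply Real.log_nonneg
          rw [← hLdef]
          linarith
        rw [spLam, hG]
        linarith
      positivity
    have h2 : (y + 1) * (12 * (1 + y) + 6 * (2 + 2 * y)) = 24 * (1 + y) ^ 2 := by ring
    rw [h2] at h1
    linarith
  · rw [hlam]
    linarith

/-- The numeric bound of the constant: with `Δ ≤ exp 2 (D + L) ≤ 5 exp 2 L`, `I ≤ 2 + 2 log (2 Δ)`: `(I + 1)^2 exp (13/50 log (2 Δ)) ≤ C L^(3/10)`.  Uses `log x ≤ x^ε / ε` with `ε = 1/50` (`Real.add_one_le_exp`). -/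
theorem const_le : ∃ C : ℝ, 0 < C ∧ ∀ {L Δ : ℝ} {I : ℕ}, 10000 ≤ L → 1 ≤ Δ →
    Δ ≤ Real.exp 2 * (5 * L) → (I : ℝ) ≤ 2 + 2 * Real.log (2 * Δ) →
    ((I : ℝ) + 1) ^ 2 * Real.exp (13 / 50 * Real.log (2 * Δ)) ≤ C * L ^ (3 / 10 : ℝ) := by
  refine ⟨10000 * (10 * Real.exp 2), by positivity, ?_⟩
  intro L Δ I hL hΔ hΔL hI
  have hL0 : 0 < L := by linarith
  have h2Δ : 0 < 2 * Δ := by linarith
  obtain ⟨x, hx⟩ : ∃ x, x = Real.log (2 * Δ) := ⟨_, rfl⟩
  rw [← hx] at hI ⊢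
  have hx0 : 0 ≤ x := by
    rw [hx]
    exact Real.log_nonneg (by linarith)
  have hI0 : (0 : ℝ) ≤ I := Nat.cast_nonneg _
  have h1 : (I : ℝ) + 1 ≤ 100 * Real.exp (x / 50) := by
    have := Real.add_one_le_exp (x / 50)
    have h3 : 100 * (x / 50 + 1) ≤ 100 * Real.exp (x / 50) := by linarith
    have h4 : 100 * (x / 50 + 1) = 2 * x + 100 := by ring
    linarith
  have h2 : ((I : ℝ) + 1) ^ 2 ≤ 10000 * Real.exp (x / 25) := by
    have h5 : ((I : ℝ) + 1) ^ 2 ≤ (100 * Real.exp (x / 50)) ^ 2 :=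
      pow_le_pow_left₀ (by linarith) h1 2
    have h6 : (100 * Real.exp (x / 50)) ^ 2 = 10000 * Real.exp (x / 25) := by
      rw [mul_pow, ← Real.exp_nat_mul]
      norm_num
      ring_nf
    linarith
  have h3 : ((I : ℝ) + 1) ^ 2 * Real.exp (13 / 50 * x) ≤ 10000 * Real.exp (3 / 10 * x) := by
    calc ((I : ℝ) + 1) ^ 2 * Real.exp (13 / 50 * x)
        ≤ 10000 * Real.exp (x / 25) * Real.exp (13 / 50 * x) :=
          mul_le_mul_of_nonneg_right h2 (Real.exp_pos _).le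
      _ = 10000 * Real.exp (3 / 10 * x) := by
          rw [mul_assoc, ← Real.exp_add]
          ring_nf
  have h4 : Real.exp (3 / 10 * x) = (2 * Δ) ^ (3 / 10 : ℝ) := by
    rw [Real.rpow_def_of_pos h2Δ, hx]
    ring_nf
  have hb : 1 ≤ 10 * Real.exp 2 := by
    have := Real.one_le_exp (show (0 : ℝ) ≤ 2 by norm_num)
    linarith
  have h5 : (2 * Δ) ^ (3 / 10 : ℝ) ≤ (10 * Real.exp 2) * L ^ (3 / 10 : ℝ) := by
    have h6 : 2 * Δ ≤ (10 * Real.exp 2) * L := by nlinarith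
    calc (2 * Δ) ^ (3 / 10 : ℝ) ≤ ((10 * Real.exp 2) * L) ^ (3 / 10 : ℝ) :=
          Real.rpow_le_rpow h2Δ.le h6 (by norm_num)
      _ = (10 * Real.exp 2) ^ (3 / 10 : ℝ) * L ^ (3 / 10 : ℝ) :=
          Real.mul_rpow (by positivity) hL0.le
      _ ≤ (10 * Real.exp 2) * L ^ (3 / 10 : ℝ) := by
          refine mul_le_mul_of_nonneg_right ?_ (by positivity)
          calc (10 * Real.exp 2) ^ (3 / 10 : ℝ) ≤ (10 * Real.exp 2) ^ (1 : ℝ) :=
                Real.rpow_le_rpow_of_exponent_le hb (by norm_num)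
            _ = _ := Real.rpow_one _
  calc ((I : ℝ) + 1) ^ 2 * Real.exp (13 / 50 * x) ≤ 10000 * Real.exp (3 / 10 * x) := h3
    _ = 10000 * (2 * Δ) ^ (3 / 10 : ℝ) := by rw [h4]
    _ ≤ 10000 * ((10 * Real.exp 2) * L ^ (3 / 10 : ℝ)) := by
        exact mul_le_mul_of_nonneg_left h5 (by norm_num)
    _ = _ := by ring

/-- The case `L < 10000`: all numbers. -/
private lemma small_caseW {P Pm L C₀ C₁ pT pC : ℝ} (hL0 : 0 < L) (hL : L < 10000) (hP0 : 0 < P)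
    (hPm : P ≤ Pm) (hC₀ : 0 < C₀) (hC₁ : 0 < C₁)
    (hT : pT ≤ C₀ * P * L) (hC : pC ≤ C₁ * P * L ^ 2) :
    pT ≤ 10000 * C₀ * Pm * L ^ (3 / 10 : ℝ) ∧ pC ≤ 10000 * C₁ * Pm * L ^ (13 / 10 : ℝ) := by
  have hPm0 : 0 < Pm := by linarith
  have h7 : L ^ (7 / 10 : ℝ) ≤ 10000 := by
    calc L ^ (7 / 10 : ℝ) ≤ (10000 : ℝ) ^ (7 / 10 : ℝ) :=
          Real.rpow_le_rpow hL0.le hL.le (by norm_num)
      _ ≤ (10000 : ℝ) ^ (1 : ℝ) := Real.rpow_le_rpow_of_exponent_le (by norm_num) (by norm_num)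
      _ = 10000 := Real.rpow_one _
  have h3 : L = L ^ (3 / 10 : ℝ) * L ^ (7 / 10 : ℝ) := by
    rw [← Real.rpow_add hL0]
    norm_num
  have h13 : L ^ 2 = L ^ (13 / 10 : ℝ) * L ^ (7 / 10 : ℝ) := by
    rw [← Real.rpow_add hL0, ← Real.rpow_two]
    norm_num
  have hp3 : 0 < L ^ (3 / 10 : ℝ) := Real.rpow_pos_of_pos hL0 _
  have hp13 : 0 < L ^ (13 / 10 : ℝ) := Real.rpow_pos_of_pos hL0 _
  have hL1 : L ≤ L ^ (3 / 10 : ℝ) * 10000 := by
    calc L = L ^ (3 / 10 : ℝ) * L ^ (7 / 10 : ℝ) := h3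
      _ ≤ L ^ (3 / 10 : ℝ) * 10000 := mul_le_mul_of_nonneg_left h7 hp3.le
  have hL2 : L ^ 2 ≤ L ^ (13 / 10 : ℝ) * 10000 := by
    calc L ^ 2 = L ^ (13 / 10 : ℝ) * L ^ (7 / 10 : ℝ) := h13
      _ ≤ L ^ (13 / 10 : ℝ) * 10000 := mul_le_mul_of_nonneg_left h7 hp13.le
  constructor
  · calc pT ≤ C₀ * P * L := hT
      _ ≤ C₀ * Pm * (L ^ (3 / 10 : ℝ) * 10000) :=
          mul_le_mul (mul_le_mul_of_nonneg_left hPm hC₀.le) hL1 hL0.le (by positivity)
      _ = _ := by ring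
  · calc pC ≤ C₁ * P * L ^ 2 := hC
      _ ≤ C₁ * Pm * (L ^ (13 / 10 : ℝ) * 10000) :=
          mul_le_mul (mul_le_mul_of_nonneg_left hPm hC₁.le) hL2 (by positivity) (by positivity)
      _ = _ := by ring

/-- The case `L ≥ 10000`: from the threshold to the bounds, all numbers. -/
private lemma main_caseW {Θ Pm L E C₂ K q pT pC : ℝ} (hL0 : 0 < L) (hPm0 : 0 < Pm) (hE : 0 < E)
    (hC₂ : 0 < C₂) (hq0 : 0 < q) (hq4 : q ≤ 4 * Pm) (hKle : K ≤ C₂ * L ^ (3 / 10 : ℝ))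
    (hΘ : Θ = E * K * q) (hT : pT ≤ Θ) (hC : pC ≤ 512 * L * Θ) :
    pT ≤ 4 * 512 * E * C₂ * Pm * L ^ (3 / 10 : ℝ) ∧
      pC ≤ 4 * 512 * E * C₂ * Pm * L ^ (13 / 10 : ℝ) := by
  have hp3 : 0 < L ^ (3 / 10 : ℝ) := Real.rpow_pos_of_pos hL0 _
  have h13 : L ^ (13 / 10 : ℝ) = L * L ^ (3 / 10 : ℝ) := by
    rw [show (13 / 10 : ℝ) = 1 + 3 / 10 by norm_num, Real.rpow_add hL0, Real.rpow_one]
  have hΘle : Θ ≤ 4 * E * C₂ * Pm * L ^ (3 / 10 : ℝ) := by
    rw [hΘ]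
    calc E * K * q ≤ E * (C₂ * L ^ (3 / 10 : ℝ)) * (4 * Pm) :=
          mul_le_mul (mul_le_mul_of_nonneg_left hKle hE.le) hq4 hq0.le (by positivity)
      _ = _ := by ring
  have hbig : 0 ≤ 4 * E * C₂ * Pm * L ^ (3 / 10 : ℝ) := by positivity
  constructor
  · calc pT ≤ Θ := hT
      _ ≤ 4 * E * C₂ * Pm * L ^ (3 / 10 : ℝ) := hΘle
      _ ≤ 4 * 512 * E * C₂ * Pm * L ^ (3 / 10 : ℝ) := by
          have : 4 * 512 * E * C₂ * Pm * L ^ (3 / 10 : ℝ) =
              512 * (4 * E * C₂ * Pm * L ^ (3 / 10 : ℝ)) := by ring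
          rw [this]
          linarith
  · rw [h13]
    calc pC ≤ 512 * L * Θ := hC
      _ ≤ 512 * L * (4 * E * C₂ * Pm * L ^ (3 / 10 : ℝ)) :=
          mul_le_mul_of_nonneg_left hΘle (by positivity)
      _ = _ := by ring

/-- The main theorem.  `q = max (4 pE) (1/n)`, `good_of_pE`.  `L ≥ 10000`: `exists_qparW`, `embBound_W`, `const_le`, `pTilde_le_of_embBound`, `pc_le_of_embBound`.
`L < 10000`: `pTilde_le_pE_log`, `pc_le_pE_log_sq`, as in `q_thresholds_main` (Lib/P064Q/FinalQ.lean). -/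
theorem w_thresholds :
    ∃ C : ℝ, 0 < C ∧ ∀ (n : ℕ) (V : Type) [Fintype V] (H : SimpleGraph V), 2 ≤ n →
      Fintype.card V ≤ n → H ≠ ⊥ → (n : ℝ) * pE n H ≤ Real.log n →
      pTilde n H ≤ C * max (pE n H) (1 / (n : ℝ)) * Real.log n ^ (3 / 10 : ℝ) ∧
      pc n H ≤ C * max (pE n H) (1 / (n : ℝ)) * Real.log n ^ (13 / 10 : ℝ) := by
  obtain ⟨C₀, hC₀, h0⟩ := pTilde_le_pE_log
  obtain ⟨C₁, hC₁, h1⟩ := pc_le_pE_log_sq
  obtain ⟨C₂, hC₂, h2⟩ := const_le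
  have hexp : 0 < Real.exp 1000 := Real.exp_pos _
  refine ⟨4 * 512 * Real.exp 1000 * C₂ + 10000 * C₀ + 10000 * C₁, by positivity, ?_⟩
  intro n V _ H hn hV hH hnP
  have hn2 : (2 : ℝ) ≤ n := by exact_mod_cast hn
  have hn0 : (0 : ℝ) < n := by linarith
  have hL0 : 0 < Real.log n := Real.log_pos (by linarith)
  have hP0 : 0 < pE n H := pE_pos hn hV hH
  obtain ⟨P, hP⟩ : ∃ P, P = pE n H := ⟨_, rfl⟩
  obtain ⟨L, hL⟩ : ∃ L, L = Real.log n := ⟨_, rfl⟩
  rw [← hP, ← hL] at hnP ⊢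
  rw [← hP] at hP0
  rw [← hL] at hL0
  obtain ⟨Pm, hPmdef⟩ : ∃ Pm, Pm = max P (1 / (n : ℝ)) := ⟨_, rfl⟩
  rw [← hPmdef]
  have hPPm : P ≤ Pm := by
    rw [hPmdef]
    exact le_max_left _ _
  have hnPm : 1 / (n : ℝ) ≤ Pm := by
    rw [hPmdef]
    exact le_max_right _ _
  have hPm0 : 0 < Pm := by linarith
  have hp3 : 0 < L ^ (3 / 10 : ℝ) := Real.rpow_pos_of_pos hL0 _
  have hp13 : 0 < L ^ (13 / 10 : ℝ) := Real.rpow_pos_of_pos hL0 _
  -- the constants split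
  obtain ⟨C₃, hC₃⟩ : ∃ C₃, C₃ = 4 * 512 * Real.exp 1000 * C₂ := ⟨_, rfl⟩
  rw [← hC₃]
  have hC₃0 : 0 < C₃ := by
    rw [hC₃]
    positivity
  have hsum3 : ∀ a b c : ℝ, 0 ≤ a → 0 ≤ b → 0 ≤ c → ∀ X : ℝ, 0 ≤ X → ∀ y : ℝ, y ≤ a * Pm * X →
      y ≤ (a + b + c) * Pm * X := by
    intro a b c ha hb hc X hX y hy
    have h5 : 0 ≤ (b + c) * Pm * X := by positivity
    have h6 : (a + b + c) * Pm * X = a * Pm * X + (b + c) * Pm * X := by ring
    rw [h6]
    linarith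
  have hsum4 : ∀ X : ℝ, 0 ≤ X → ∀ y : ℝ, y ≤ 10000 * C₀ * Pm * X →
      y ≤ (C₃ + 10000 * C₀ + 10000 * C₁) * Pm * X := by
    intro X hX y hy
    have h5 : 0 ≤ (C₃ + 10000 * C₁) * Pm * X := by positivity
    have h6 : (C₃ + 10000 * C₀ + 10000 * C₁) * Pm * X =
        10000 * C₀ * Pm * X + (C₃ + 10000 * C₁) * Pm * X := by ring
    rw [h6]
    linarith
  have hsum5 : ∀ X : ℝ, 0 ≤ X → ∀ y : ℝ, y ≤ 10000 * C₁ * Pm * X →
      y ≤ (C₃ + 10000 * C₀ + 10000 * C₁) * Pm * X := by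
    intro X hX y hy
    have h5 : 0 ≤ (C₃ + 10000 * C₀) * Pm * X := by positivity
    have h6 : (C₃ + 10000 * C₀ + 10000 * C₁) * Pm * X =
        10000 * C₁ * Pm * X + (C₃ + 10000 * C₀) * Pm * X := by ring
    rw [h6]
    linarith
  by_cases hcase : L < 10000
  · have h01 := h0 n hn V H hV hH
    have h11 := h1 n hn V H hV hH
    rw [← hP, ← hL] at h01 h11
    obtain ⟨h3, h4⟩ := small_caseW hL0 hcase hP0 hPPm hC₀ hC₁ h01 h11
    exact ⟨hsum4 _ hp3.le _ h3, hsum5 _ hp13.le _ h4⟩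
  · push Not at hcase
    obtain ⟨q, hq⟩ : ∃ q, q = max (4 * P) (1 / (n : ℝ)) := ⟨_, rfl⟩
    have hq1 : 4 * P ≤ q := by
      rw [hq]
      exact le_max_left _ _
    have hq2 : 1 / (n : ℝ) ≤ q := by
      rw [hq]
      exact le_max_right _ _
    have hq0 : 0 < q := by linarith
    have hq4 : q ≤ 4 * Pm := by
      rw [hq]
      apply max_le
      · linarith
      · linarith
    have hnn : (n : ℝ) * (1 / (n : ℝ)) = 1 := by field_simp
    have hD1 : 1 ≤ (n : ℝ) * q := by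
      have : (n : ℝ) * (1 / (n : ℝ)) ≤ (n : ℝ) * q := mul_le_mul_of_nonneg_left hq2 hn0.le
      linarith
    have hD2 : (n : ℝ) * q ≤ 4 * L := by
      rw [hq]
      rcases le_total (4 * P) (1 / (n : ℝ)) with h | h
      · rw [max_eq_right h, hnn]
        linarith
      · rw [max_eq_left h]
        nlinarith
    have hG : GoodDensity n q H := Vale.Agent.Lib.P064N.good_of_pE hn hV hH (by rw [← hP]; exact hq1)
    have hLn : 10000 ≤ Real.log n := by rw [← hL]; exact hcase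
    obtain ⟨l, lam, Δ, A₁, s₁, I, hpar, hA8, hΔ, hI, hqe, hD3, hκ, hg⟩ :=
      exists_qparW hn hLn hD1 (by rw [← hL]; exact hD2)
    have hEmb := embBound_W hG hn hV hpar hA8 hqe (by linarith) hD3 hκ hg
    have hl : l = L := by rw [hL]; exact hpar.std.l_eq
    have hl1 := hpar.std.l1
    have hDdeg := hpar.Δdeg
    rw [hl] at hDdeg
    have he2 : 1 ≤ Real.exp 2 := Real.one_le_exp (by norm_num)
    have hΔ1 : 1 ≤ Δ := by
      have h5 : 1 ≤ (n : ℝ) * q + L := by linarith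
      have h6 : 1 * 1 ≤ Real.exp 2 * ((n : ℝ) * q + L) := mul_le_mul he2 h5 (by norm_num) (by positivity)
      linarith
    have hΔ5 : Δ ≤ Real.exp 2 * (5 * L) := by
      refine hΔ.trans ?_
      rw [← hL]
      apply mul_le_mul_of_nonneg_left _ (by positivity)
      linarith
    have hK := @h2 L Δ I hcase hΔ1 hΔ5 hI
    have hI0 : (0 : ℝ) ≤ I := Nat.cast_nonneg _
    have hΘ0 : 0 < Real.exp 1000 * ((I : ℝ) + 1) ^ 2 * Real.exp (13 / 50 * Real.log (2 * Δ)) * q := by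
      positivity
    have hT := pTilde_le_of_embBound hV hΘ0 hEmb
    have hC := pc_le_of_embBound hn hV hH hΘ0 hEmb
    rw [← hL] at hC
    obtain ⟨h3, h4⟩ := main_caseW (q := q) (E := Real.exp 1000)
      (K := ((I : ℝ) + 1) ^ 2 * Real.exp (13 / 50 * Real.log (2 * Δ)))
      (Θ := Real.exp 1000 * ((I : ℝ) + 1) ^ 2 * Real.exp (13 / 50 * Real.log (2 * Δ)) * q)
      hL0 hPm0 hexp hC₂ hq0 hq4 hK (by ring) hT hC
    rw [← hC₃] at h3 h4
    exact ⟨hsum3 _ _ _ hC₃0.le (by positivity) (by positivity) _ hp3.le _ h3,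
      hsum3 _ _ _ hC₃0.le (by positivity) (by positivity) _ hp13.le _ h4⟩

end Vale.Agent.Lib.P064W
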