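import Vale.Agent.Lib.P064S.Fiber

/-!
The count over a minimal set with at least two vertices, with a free constant `K` in place of
`spK`: the factor `1 + L / D` of `spK` is only needed for pendant vertices (notes/P064W_blueprint.md, part BK).
-/

open Finset

namespace Vale.Agent.Lib.P064W

open Vale.Agent.Lib.P064
open scoped Classical

variable {V α : Type} [Fintype V] [Fintype α] {H : SimpleGraph V} {F : SimpleGraph α} {n : ℕ}
  {q : ℝ}

lemma one_le_KK {K : ℝ} (hKk : Real.exp 1 * Real.exp (2 * spKap n q) ≤ K) (hD : 1 ≤ (n : ℝ) * q)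
    (hL : 0 ≤ Real.log n) (hQ : 1 < - Real.log q) : 1 ≤ K := by
  have hk := spKap_nonneg hD hL hQ
  have h2 : 1 ≤ Real.exp 1 := Real.one_le_exp (by norm_num)
  have h4 : 1 ≤ Real.exp (2 * spKap n q) := Real.one_le_exp (by linarith)
  nlinarith

lemma exp_mul_kap_leK {K : ℝ} (hKk : Real.exp 1 * Real.exp (2 * spKap n q) ≤ K) (hD : 1 ≤ (n : ℝ) * q)
    (hL : 0 ≤ Real.log n) (hQ : 1 < - Real.log q) (a : ℕ) :
    Real.exp (a * spKap n q) ≤ K ^ a := by
  have hk := spKap_nonneg hD hL hQ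
  have h1 : Real.exp (a * spKap n q) = Real.exp (spKap n q) ^ a := by
    rw [← Real.exp_nat_mul]
  rw [h1]
  apply pow_le_pow_left₀ (Real.exp_pos _).le
  have he : (1 : ℝ) ≤ Real.exp 1 := Real.one_le_exp (by norm_num)
  have h2 : Real.exp (spKap n q) ≤ Real.exp (2 * spKap n q) := by
    apply Real.exp_le_exp.2
    linarith
  have h4 : 0 < Real.exp (2 * spKap n q) := Real.exp_pos _
  nlinarith

lemma sq_mul_le_powK {a : ℕ} (ha : 1 ≤ a) : ((a : ℝ)) ^ 2 * Real.exp 2 ≤ spA ^ a := by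
  have h1 := sq_le_four_pow a
  have hE : (1 : ℝ) ≤ Real.exp 2 := Real.one_le_exp (by norm_num)
  have h2 : Real.exp 2 ≤ Real.exp 2 ^ a := by
    calc Real.exp 2 = Real.exp 2 ^ 1 := (pow_one _).symm
      _ ≤ Real.exp 2 ^ a := pow_le_pow_right₀ hE ha
  have h3 : (4 : ℝ) ^ a ≤ 64 ^ a := pow_le_pow_left₀ (by norm_num) (by norm_num) _
  unfold spA
  rw [mul_pow]
  have h4 : (0 : ℝ) ≤ (a : ℝ) ^ 2 := by positivity
  have h5 : (0 : ℝ) ≤ Real.exp 2 := by positivity
  have h6 : (0 : ℝ) ≤ Real.exp 2 ^ a := by positivity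
  exact mul_le_mul (h1.trans h3) h2 h5 (by positivity)

/-- Final inequality, first alternative. -/
lemma sp_final_AK {K : ℝ} (hKk : Real.exp 1 * Real.exp (2 * spKap n q) ≤ K) (hD : 1 ≤ (n : ℝ) * q) (hL : 0 ≤ Real.log n) (hQ : 1 < - Real.log q)
    {a m t : ℕ} {ρ P : ℝ} (ha : 1 ≤ a) (ham : a ≤ m) (hρ : 0 ≤ ρ)
    (ht : (t : ℝ) ≤ Real.exp 2 * ρ) (hP : P ≤ Real.exp (a * spKap n q)) (hP0 : 0 ≤ P) :
    (a : ℝ) * (t * a) * P ≤ spA ^ a * K ^ m * ρ := by
  have hK1 := one_le_KK hKk hD hL hQ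
  have hK0 : 0 < K := by linarith
  have h1 := exp_mul_kap_leK hKk hD hL hQ a
  have h2 := sq_mul_le_powK ha
  have hP2 : P ≤ K ^ m := hP.trans (h1.trans (pow_le_pow_right₀ hK1 ham))
  have hA0 : (0 : ℝ) ≤ spA ^ a := by
    have := spA_one_le
    positivity
  calc (a : ℝ) * (t * a) * P = ((a : ℝ) ^ 2 * t) * P := by ring
    _ ≤ ((a : ℝ) ^ 2 * (Real.exp 2 * ρ)) * P := by gcongr
    _ = ((a : ℝ) ^ 2 * Real.exp 2) * P * ρ := by ring
    _ ≤ spA ^ a * K ^ m * ρ := by
        apply mul_le_mul_of_nonneg_right _ hρ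
        exact mul_le_mul h2 hP2 hP0 hA0

/-- Final inequality, second alternative. -/
lemma sp_final_BK {K : ℝ} (hKk : Real.exp 1 * Real.exp (2 * spKap n q) ≤ K) (hD : 1 ≤ (n : ℝ) * q) (hL4 : 4 ≤ Real.log n)
    (hQ2 : Real.log n / 2 ≤ - Real.log q)
    {a x b t : ℕ} {ρ P : ℝ} (ha : 1 ≤ a) (hx : 1 ≤ x) (hb : b ≤ x + 1) (hρ : 0 ≤ ρ)
    (hxa : (x : ℝ) * (- Real.log q - 1) ≤ a * (spG n q + 1))
    (ht : (t : ℝ) ≤ b * Real.log n) (hP : P ≤ Real.exp (a * spKap n q)) (hP0 : 0 ≤ P)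
    (hρ' : Real.exp (-((a + x : ℕ) : ℝ)) ≤ ρ) :
    (a : ℝ) * (t * a) * P ≤ spA ^ a * K ^ (a + x) * ρ := by
  have hL0 : 0 ≤ Real.log n := by linarith
  have hQ : 1 < - Real.log q := by linarith
  have hQ1 : 0 < - Real.log q - 1 := by linarith
  have hnq : 0 < (n : ℝ) * q := by linarith
  have hg := spG_nonneg hD
  have hK1 := one_le_KK hKk hD hL0 hQ
  have hK0 : 0 < K := by linarith
  have hk := spKap_nonneg hD hL0 hQ
  have hLam := spLam_nonneg hD hL0
  set L := Real.log n with hLdef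
  have hlogL : 0 ≤ Real.log (L + 2) := Real.log_nonneg (by linarith)
  -- the excess against the exponent
  set M := 12 * (1 + spG n q) + 6 * spLam n q with hM
  have hM1 : 1 + Real.log (L + 2) ≤ M := by
    rw [hM]
    unfold spLam
    nlinarith
  have hkap : spKap n q = (spG n q + 1) * M / (- Real.log q - 1) := rfl
  have hax : (x : ℝ) * M ≤ a * spKap n q := by
    rw [hkap]
    have h1 : (x : ℝ) ≤ a * (spG n q + 1) / (- Real.log q - 1) := by
      rw [le_div_iff₀ hQ1]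
      exact hxa
    have hM0 : 0 ≤ M := by linarith
    calc (x : ℝ) * M ≤ (a * (spG n q + 1) / (- Real.log q - 1)) * M :=
          mul_le_mul_of_nonneg_right h1 hM0
      _ = _ := by ring
  have hx1 : (1 : ℝ) ≤ x := by exact_mod_cast hx
  have hexp : (x : ℝ) + Real.log (L + 2) ≤ a * spKap n q := by
    have : (x : ℝ) + Real.log (L + 2) ≤ (x : ℝ) * M := by nlinarith
    linarith
  -- `b * L` is at most the exponential
  have hbL : (b : ℝ) * L ≤ Real.exp (a * spKap n q) := by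
    have h1 : (b : ℝ) ≤ x + 1 := by exact_mod_cast hb
    have h2 : (x : ℝ) + 1 ≤ Real.exp x := by
      have := Real.add_one_le_exp (x : ℝ)
      linarith
    have h3 : Real.exp (Real.log (L + 2)) = L + 2 := Real.exp_log (by linarith)
    have h4 : Real.exp ((x : ℝ) + Real.log (L + 2)) ≤ Real.exp (a * spKap n q) :=
      Real.exp_le_exp.2 hexp
    rw [Real.exp_add, h3] at h4
    have h5 : 0 < Real.exp (x : ℝ) := Real.exp_pos _
    calc (b : ℝ) * L ≤ Real.exp x * (L + 2) := by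
          apply mul_le_mul (h1.trans h2) (by linarith) hL0 h5.le
      _ ≤ _ := h4
  -- the factor `exp m` from `ρ`
  set m := a + x with hmdef
  have hρ1 : 1 ≤ Real.exp (m : ℝ) * ρ := by
    have h1 := mul_le_mul_of_nonneg_left hρ' (Real.exp_pos (m : ℝ)).le
    rw [← Real.exp_add] at h1
    simpa using h1
  have hfr : 0 ≤ L / ((n : ℝ) * q) := div_nonneg hL0 hnq.le
  have hE1 : (1 : ℝ) ≤ Real.exp 1 := Real.one_le_exp (by norm_num)
  have hK2 : Real.exp 1 * Real.exp (2 * spKap n q) ≤ K := hKk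
  have hma : a ≤ m := Nat.le_add_right _ _
  -- the power of `spK`
  have hpow : Real.exp (m : ℝ) * (Real.exp (a * spKap n q)) ^ 2 ≤ K ^ m := by
    have h1 : Real.exp (m : ℝ) = Real.exp 1 ^ m := by
      rw [← Real.exp_nat_mul]
      simp
    have h2 : (Real.exp (a * spKap n q)) ^ 2 ≤ Real.exp (2 * spKap n q) ^ m := by
      rw [← Real.exp_nat_mul, ← Real.exp_nat_mul]
      apply Real.exp_le_exp.2
      have : (a : ℝ) ≤ m := by exact_mod_cast hma
      push_cast
      nlinarith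
    calc Real.exp (m : ℝ) * (Real.exp (a * spKap n q)) ^ 2
        ≤ Real.exp 1 ^ m * Real.exp (2 * spKap n q) ^ m := by
          rw [h1]
          exact mul_le_mul_of_nonneg_left h2 (by positivity)
      _ = (Real.exp 1 * Real.exp (2 * spKap n q)) ^ m := (mul_pow _ _ _).symm
      _ ≤ K ^ m := pow_le_pow_left₀ (by positivity) hK2 _
  have hsq := sq_le_four_pow a
  have hA : (4 : ℝ) ^ a ≤ spA ^ a := by
    apply pow_le_pow_left₀ (by norm_num)
    unfold spA
    have : (1 : ℝ) ≤ Real.exp 2 := Real.one_le_exp (by norm_num)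
    linarith
  have hA0 : (0 : ℝ) ≤ (a : ℝ) ^ 2 := by positivity
  have hte : (t : ℝ) ≤ Real.exp (a * spKap n q) := ht.trans hbL
  have ht0 : (0 : ℝ) ≤ t := Nat.cast_nonneg _
  have hE0 : 0 < Real.exp (a * spKap n q) := Real.exp_pos _
  calc (a : ℝ) * (t * a) * P = (a : ℝ) ^ 2 * (t * P) := by ring
    _ ≤ (a : ℝ) ^ 2 * (Real.exp (a * spKap n q) * Real.exp (a * spKap n q)) := by
        apply mul_le_mul_of_nonneg_left _ hA0
        exact mul_le_mul hte hP hP0 hE0.le
    _ = (a : ℝ) ^ 2 * (Real.exp (a * spKap n q)) ^ 2 := by ring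
    _ ≤ (a : ℝ) ^ 2 * (Real.exp (a * spKap n q)) ^ 2 * (Real.exp (m : ℝ) * ρ) :=
        le_mul_of_one_le_right (by positivity) hρ1
    _ = (a : ℝ) ^ 2 * (Real.exp (m : ℝ) * (Real.exp (a * spKap n q)) ^ 2) * ρ := by ring
    _ ≤ spA ^ a * K ^ m * ρ := by
        apply mul_le_mul_of_nonneg_right _ hρ
        exact mul_le_mul (hsq.trans hA) hpow (by positivity) (by
          have := spA_one_le
          positivity)

/-- Final inequality, short cycle. -/
lemma sp_final_CK {K : ℝ} (hKk : Real.exp 1 * Real.exp (2 * spKap n q) ≤ K) (hD : 1 ≤ (n : ℝ) * q) (hL : 0 ≤ Real.log n) (hQ : 1 < - Real.log q)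
    {a t : ℕ} {ρ P : ℝ} (ha : 1 ≤ a) (hρ : 0 ≤ ρ)
    (ht : (t : ℝ) ≤ Real.exp 2 * ρ) (hP : P ≤ 4) (hP0 : 0 ≤ P) :
    (a : ℝ) * (t * a) * P ≤ spA ^ a * K ^ a * ρ := by
  have hK1 := one_le_KK hKk hD hL hQ
  have hKa : (1 : ℝ) ≤ K ^ a := one_le_pow₀ hK1
  have hsq := sq_le_four_pow a
  have hE : (1 : ℝ) ≤ Real.exp 2 := Real.one_le_exp (by norm_num)
  have h2 : Real.exp 2 ≤ Real.exp 2 ^ a := by
    calc Real.exp 2 = Real.exp 2 ^ 1 := (pow_one _).symm
      _ ≤ Real.exp 2 ^ a := pow_le_pow_right₀ hE ha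
  have h4 : (4 : ℝ) ≤ 4 ^ a := by
    calc (4 : ℝ) = 4 ^ 1 := (pow_one _).symm
      _ ≤ 4 ^ a := pow_le_pow_right₀ (by norm_num) ha
  have h16 : (4 : ℝ) ^ a * 4 ^ a ≤ 64 ^ a := by
    rw [← mul_pow]
    exact pow_le_pow_left₀ (by norm_num) (by norm_num) _
  have hA : ((a : ℝ)) ^ 2 * 4 * Real.exp 2 ≤ spA ^ a := by
    unfold spA
    rw [mul_pow]
    have h5 : ((a : ℝ)) ^ 2 * 4 ≤ 64 ^ a := by
      calc ((a : ℝ)) ^ 2 * 4 ≤ 4 ^ a * 4 ^ a :=
            mul_le_mul hsq h4 (by norm_num) (by positivity)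
        _ ≤ 64 ^ a := h16
    exact mul_le_mul h5 h2 (by positivity) (by positivity)
  have hA0 : (0 : ℝ) ≤ (a : ℝ) ^ 2 := by positivity
  have hA1 : (0 : ℝ) ≤ spA ^ a := by
    have := spA_one_le
    positivity
  calc (a : ℝ) * (t * a) * P = (a : ℝ) ^ 2 * t * P := by ring
    _ ≤ (a : ℝ) ^ 2 * (Real.exp 2 * ρ) * 4 := by gcongr
    _ = ((a : ℝ) ^ 2 * 4 * Real.exp 2) * ρ := by ring
    _ ≤ spA ^ a * ρ := mul_le_mul_of_nonneg_right hA hρ
    _ ≤ spA ^ a * K ^ a * ρ := by
        apply mul_le_mul_of_nonneg_right _ hρ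
        exact le_mul_of_one_le_right hA1 hKa

/-- Copy of the part `2 ≤ I.card` of `sp_fiber` (Lib/P064S/Fiber.lean), with copies of `sp_final_A`, `sp_final_B`, `sp_final_C`
(Lib/P064S/NumF.lean) in which `spK n q` is replaced by `K`, `hK : exp 1 * exp (2 spKap) ≤ K` (all that those proofs use of `spK`). -/
theorem sp_block (hG : GoodDensity n q H) (hn : 2 ≤ n) (hV : Fintype.card V ≤ n) (hq0 : 0 < q)
    (hqe : q ≤ Real.exp (-1)) (hL4 : 4 ≤ Real.log n) (hD : 1 ≤ (n : ℝ) * q)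
    (hD2 : (Real.exp 1 * ((n : ℝ) * q)) ^ 2 < n)
    {E I : Finset α} (hdisj : Disjoint I E) (hne : I.Nonempty) (h2 : 2 ≤ I.card)
    (hτ : 1 ≤ (n : ℝ) ^ I.card * (Real.exp 1 * q) ^ eT F (E ∪ I) I)
    (hmin : ∀ J ⊆ I, J.Nonempty → J ≠ I → Low n q F (E ∪ I) J)
    {S : Finset (α → V)} (hinj : ∀ φ ∈ S, Function.Injective φ)
    (hhom : ∀ φ ∈ S, ∀ u v, F.Adj u v → H.Adj (φ u) (φ v))
    {φ₀ : α → V} (hagree : ∀ φ ∈ S, ∀ x ∈ E, φ x = φ₀ x)
    {K : ℝ} (hK : Real.exp 1 * Real.exp (2 * spKap n q) ≤ K) :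
    ((S.image (proj (E ∪ I))).card : ℝ) ≤
      spA ^ I.card * K ^ (newE F E I).card *
        ((n : ℝ) ^ I.card * q ^ (newE F E I).card) := by
  have hn2 : (2 : ℝ) ≤ n := by exact_mod_cast hn
  have hn1 : (1 : ℝ) ≤ n := by linarith
  have hn0 : (0 : ℝ) < n := by linarith
  have hn' : 1 ≤ n := by omega
  have hL0 : 0 ≤ Real.log n := by linarith
  have hQ2 := spQ_of_D2 hn hq0 hD hD2
  have hQ1 : 1 < - Real.log q := by linarith
  have hq1 : q ≤ 1 := hqe.trans (by rw [Real.exp_le_one_iff]; norm_num)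
  have hK1 := one_le_KK hK hD hL0 hQ1
  have hA1 := spA_one_le
  have hE2 : 0 < Real.exp 2 := Real.exp_pos _
  have hτ' := hτ
  rw [eT_union_self hdisj] at hτ'
  by_cases hS : S.Nonempty
  swap
  · rw [Finset.not_nonempty_iff_eq_empty] at hS
    rw [hS]
    simp only [Finset.image_empty, Finset.card_empty, Nat.cast_zero]
    have hK0 : 0 ≤ K := by linarith
    have hA0 : 0 ≤ spA := by linarith
    positivity
  have ha1 : 1 ≤ I.card := Finset.card_pos.2 hne
  have heq1 : Real.exp 1 * q ≤ 1 := by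
    have h1 : Real.exp 1 * q ≤ Real.exp 1 * Real.exp (-1) :=
      mul_le_mul_of_nonneg_left hqe (Real.exp_pos _).le
    rw [← Real.exp_add] at h1
    simpa using h1
  have heq0 : 0 < Real.exp 1 * q := by positivity
  have ha : ¬ I.card = 1 := by omega
  -- at least two vertices
  have ha2 : 2 ≤ I.card := by omega
  have hconn := conn_of_min hn' hq0 hqe hdisj hτ hmin
  have hdeg : ∀ w ∈ I, 2 ≤ dW F (E ∪ I) w := by
    intro w hw
    have hsub : ({w} : Finset α) ⊆ I := Finset.singleton_subset_iff.2 hw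
    have hne' : ({w} : Finset α) ≠ I := by
      intro h
      rw [← h, Finset.card_singleton] at ha
      exact ha rfl
    have := low_card_lt hq0 hqe hD (hmin {w} hsub (Finset.singleton_nonempty w) hne')
    rw [Finset.card_singleton] at this
    exact this
  have hsum := sum_dW_add_core (F := F) E I hdisj
  have h2a : 2 * I.card ≤ ∑ w ∈ I, dW F (E ∪ I) w := by
    calc 2 * I.card = ∑ _w ∈ I, 2 := by simp [mul_comm]
      _ ≤ _ := Finset.sum_le_sum hdeg
  have ham : I.card ≤ (newE F E I).card := by omega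
  obtain ⟨x, hm⟩ : ∃ x, (newE F E I).card = I.card + x := ⟨_, (Nat.add_sub_cancel' ham).symm⟩
  have hb1 := core_card_le hdisj hne hconn
  have hb : (core F E I).card ≤ x + 1 := by omega
  have hm1 : 1 ≤ (newE F E I).card := by omega
  have hxa : (x : ℝ) * (- Real.log q - 1) ≤ I.card * (spG n q + 1) :=
    tau_excess hn' hq0 (by rw [← hm]; exact hτ')
  have hρexp : Real.exp (-((newE F E I).card : ℝ)) ≤ (n : ℝ) ^ I.card * q ^ (newE F E I).card :=
    tau_exp hq0 hτ'
  have hρ0 : 0 ≤ (n : ℝ) ^ I.card * q ^ (newE F E I).card := by positivity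
  have hpin := fun (x' : α) (hx' : x' ∈ I) (y : V) =>
    sp_pinned hG hn hV hq0 hqe hL0 hD hQ2 hdisj hconn hmin hdeg hm hinj hhom hagree hx' y
  by_cases hx0 : x = 0
  · subst hx0
    have hb0 : (core F E I).card = 0 := by omega
    have hcore : core F E I = ∅ := Finset.card_eq_zero.1 hb0
    have hdeg2 : ∀ w ∈ I, dW F (E ∪ I) w = 2 := by
      intro w hw
      by_contra hcon
      have h3 : 2 < dW F (E ∪ I) w := by
        have := hdeg w hw
        omega
      have h4 : ∑ _w ∈ I, 2 < ∑ w ∈ I, dW F (E ∪ I) w :=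
        Finset.sum_lt_sum hdeg ⟨w, hw, h3⟩
      simp only [Finset.sum_const, smul_eq_mul] at h4
      omega
    by_cases hsmall : ((n : ℝ) * q) ^ (2 * I.card) * q < 1
    · obtain ⟨t, ht1, hdich, hcount⟩ := cover_pinned hG hq0 hq1 hn' hne hdisj hm1 S hS hinj hhom
        hagree (P := 4) (by norm_num) (by
          intro x' hx' y
          by_cases hS' : (S.filter (fun φ => φ x' = y)).Nonempty
          · obtain ⟨φ₁, hφ₁⟩ := hS'
            have hφ₁' := Finset.mem_filter.1 hφ₁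
            refine cycle_pinned hG hn' hq0 hqe hD hdisj hx' hconn hmin hdeg2 hcore (by simpa using hm)
              hsmall (fun φ hφ => hinj φ (Finset.mem_filter.1 hφ).1)
              (fun φ hφ => hhom φ (Finset.mem_filter.1 hφ).1) (φ₀ := φ₁) ?_
            intro φ hφ y' hy'
            have hφ' := Finset.mem_filter.1 hφ
            rcases Finset.mem_insert.1 hy' with rfl | hy''
            · rw [hφ'.2, hφ₁'.2]
            · rw [hagree φ hφ'.1 y' hy'', hagree φ₁ hφ₁'.1 y' hy'']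
          · rw [Finset.not_nonempty_iff_eq_empty] at hS'
            rw [hS']
            simp)
      have ht : (t : ℝ) ≤ Real.exp 2 * ((n : ℝ) ^ I.card * q ^ (newE F E I).card) := by
        rcases hdich with h | h
        · exfalso
          rw [hb0] at h
          have h5 : (1 : ℝ) ≤ t := by exact_mod_cast ht1
          simp only [Nat.cast_zero, zero_mul] at h
          linarith
        · exact h
      refine hcount.trans ?_
      have h6 := sp_final_CK hK hD hL0 hQ1 ha1 hρ0 ht le_rfl (by norm_num)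
      simpa [hm] using h6
    · push Not at hsmall
      have hP : Real.exp (4 * (((core F E I).card : ℝ) + 1) * (1 + spG n q)) *
          Real.exp (spLam n q) ^ (4 * 0 + 2) ≤ Real.exp (I.card * spKap n q) := by
        rw [hb0]
        exact sp_P_cycle hq0 hD hL0 hQ1 hsmall
      obtain ⟨t, ht1, hdich, hcount⟩ := cover_pinned hG hq0 hq1 hn' hne hdisj hm1 S hS hinj hhom
        hagree (P := Real.exp (I.card * spKap n q)) (Real.exp_pos _).le (by
          intro x' hx' y
          exact (hpin x' hx' y).trans hP)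
      have ht : (t : ℝ) ≤ Real.exp 2 * ((n : ℝ) ^ I.card * q ^ (newE F E I).card) := by
        rcases hdich with h | h
        · exfalso
          rw [hb0] at h
          have h5 : (1 : ℝ) ≤ t := by exact_mod_cast ht1
          simp only [Nat.cast_zero, zero_mul] at h
          linarith
        · exact h
      refine hcount.trans ?_
      exact sp_final_AK hK hD hL0 hQ1 ha1 ham hρ0 ht le_rfl (Real.exp_pos _).le
  · have hx1 : 1 ≤ x := Nat.one_le_iff_ne_zero.2 hx0
    have hP := sp_P_large hD hL0 hQ1 (a := I.card) hx1 hb hxa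
    obtain ⟨t, ht1, hdich, hcount⟩ := cover_pinned hG hq0 hq1 hn' hne hdisj hm1 S hS hinj hhom
      hagree (P := Real.exp (I.card * spKap n q)) (Real.exp_pos _).le (by
        intro x' hx' y
        exact (hpin x' hx' y).trans hP)
    refine hcount.trans ?_
    rcases hdich with h | h
    · rw [hm] at hρexp hρ0 ⊢
      exact sp_final_BK hK hD hL4 hQ2 ha1 hx1 hb hρ0 hxa h le_rfl (Real.exp_pos _).le hρexp
    · exact sp_final_AK hK hD hL0 hQ1 ha1 ham hρ0 h le_rfl (Real.exp_pos _).le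

end Vale.Agent.Lib.P064W
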