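import Vale.Agent.Lib.P064W.BlockK
import Vale.Agent.Lib.P064Q.Classes
import Vale.Agent.Lib.P064S.Main

/-!
The chain of minimal sets with vertex dependent degree bounds (notes/P064W_blueprint.md, part CH).
-/

open Finset

namespace Vale.Agent.Lib.P064W

open Vale.Agent.Lib.P064 Vale.Agent.Lib.P064E Vale.Agent.Lib.P064U
open scoped Classical

variable {V α : Type} [Fintype V] [Fintype α] {H : SimpleGraph V} {F : SimpleGraph α} {n : ℕ}
  {q : ℝ}

/-- The potential: `∏_{y ∈ W} X y ^ (d_W y - 1)`, as a quotient so that `d_W y = 0` gives `1 / X y`. -/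
noncomputable def psi (F : SimpleGraph α) (X : α → ℝ) (W : Finset α) : ℝ :=
  ∏ y ∈ W, (X y ^ dW F W y / X y)

/-- The degree in `F[W]` counts the neighbours in `W`. -/
lemma dW_eq (W : Finset α) (u : α) : dW F W u = (W.filter (F.Adj u)).card := by
  unfold dW eT
  have h : newE F (W \ {u}) {u} = (W.filter (F.Adj u)).image (fun v => s(u, v)) := by
    ext e
    induction e using Sym2.ind with
    | _ a b =>
      rw [mem_newE_pair]
      simp only [Finset.mem_image, Finset.mem_filter, Finset.mem_sdiff, Finset.mem_singleton]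
      constructor
      · rintro ⟨hab, ha, hb, hn⟩
        by_cases hau : a = u
        · subst hau
          refine ⟨b, ⟨?_, hab⟩, rfl⟩
          rcases hb with hb | hb
          · exact hb.1
          · exact absurd hb.symm hab.ne
        · have hbu : b = u := by
            by_contra hbu
            apply hn
            constructor
            · rcases ha with ha | ha
              · exact ha
              · exact absurd ha hau
            · rcases hb with hb | hb
              · exact hb
              · exact absurd hb hbu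
          subst hbu
          refine ⟨a, ⟨?_, hab.symm⟩, Sym2.eq_swap⟩
          rcases ha with ha | ha
          · exact ha.1
          · exact absurd ha hau
      · rintro ⟨v, ⟨hv, huv⟩, hs⟩
        rcases Sym2.eq_iff.1 hs with ⟨h1, h2⟩ | ⟨h1, h2⟩
        · subst h1
          subst h2
          refine ⟨huv, Or.inr rfl, Or.inl ⟨hv, huv.ne'⟩, ?_⟩
          rintro ⟨⟨_, h3⟩, _⟩
          exact h3 rfl
        · subst h1
          subst h2
          refine ⟨huv.symm, Or.inl ⟨hv, huv.ne'⟩, Or.inr rfl, ?_⟩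
          rintro ⟨_, ⟨_, h3⟩⟩
          exact h3 rfl
  rw [h, Finset.card_image_of_injective]
  intro v w hvw
  exact Sym2.congr_right.1 hvw

lemma dW_mono {E W : Finset α} (h : E ⊆ W) (u : α) : dW F E u ≤ dW F W u := by
  rw [dW_eq, dW_eq]
  exact Finset.card_le_card (Finset.filter_subset_filter _ h)

/-- Adding `z`: the degree of `u ∈ E` does not change if `u` and `z` are not adjacent. -/
lemma dW_insert_other {E : Finset α} {z u : α} (hz : z ∉ E) (hu : u ∈ E) (h : ¬ F.Adj u z) :
    dW F (E ∪ {z}) u = dW F E u := by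
  rw [dW_eq, dW_eq, Finset.filter_union, Finset.filter_singleton, if_neg h, Finset.union_empty]

/-- Adding `z`: the degree of `u ∈ E` grows by one if `u` and `z` are adjacent. -/
lemma dW_insert_adj {E : Finset α} {z u : α} (hz : z ∉ E) (hu : u ∈ E) (h : F.Adj u z) :
    dW F (E ∪ {z}) u = dW F E u + 1 := by
  rw [dW_eq, dW_eq, Finset.filter_union, Finset.filter_singleton, if_pos h]
  rw [Finset.card_union_of_disjoint, Finset.card_singleton]
  rw [Finset.disjoint_singleton_right]
  intro hzE
  exact hz (Finset.mem_filter.1 hzE).1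

/-- The degree of the new vertex. -/
lemma dW_insert_self {E : Finset α} {z : α} (hz : z ∉ E) :
    dW F (E ∪ {z}) z = (newE F E {z}).card := by
  unfold dW eT
  have h : (E ∪ {z}) \ {z} = E := by
    ext y
    simp only [Finset.mem_sdiff, Finset.mem_union, Finset.mem_singleton]
    constructor
    · rintro ⟨h1 | h1, h2⟩
      · exact h1
      · exact absurd h1 h2
    · intro hy
      exact ⟨Or.inl hy, fun h1 => hz (h1 ▸ hy)⟩
  rw [h]

lemma psi_pos {X : α → ℝ} (hX : ∀ y, 1 ≤ X y) (W : Finset α) : 0 < psi F X W := by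
  unfold psi
  apply Finset.prod_pos
  intro y _
  have h1 : 0 < X y := by linarith [hX y]
  positivity

/-- `m = 0`: the potential loses `1 / X z`. -/
lemma psi_single_zero {X : α → ℝ} {E : Finset α} {z : α} (hX : ∀ y, 1 ≤ X y) (hz : z ∉ E)
    (hm : (newE F E {z}).card = 0) : psi F X (E ∪ {z}) = psi F X E / X z := by
  have hne : ∀ u ∈ E, ¬ F.Adj u z := by
    intro u hu h
    have hmem : s(u, z) ∈ newE F E {z} := by
      rw [mem_newE_pair]
      refine ⟨h, Or.inl hu, Or.inr (Finset.mem_singleton_self z), ?_⟩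
      rintro ⟨_, h2⟩
      exact hz h2
    rw [Finset.card_eq_zero] at hm
    rw [hm] at hmem
    simp at hmem
  unfold psi
  rw [Finset.prod_union (Finset.disjoint_singleton_right.2 hz), Finset.prod_singleton,
    dW_insert_self hz, hm, pow_zero, mul_one_div]
  congr 1
  apply Finset.prod_congr rfl
  intro u hu
  rw [dW_insert_other hz hu (hne u hu)]

/-- `m = 1` with the neighbour `p`: the potential gains `X p`. -/
lemma psi_single_one {X : α → ℝ} {E : Finset α} {z p : α} (hX : ∀ y, 1 ≤ X y) (hz : z ∉ E)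
    (hm : (newE F E {z}).card = 1) (hp : p ∈ E) (hadj : F.Adj p z) :
    psi F X (E ∪ {z}) = psi F X E * X p := by
  have hmem : ∀ u ∈ E, F.Adj u z → s(u, z) ∈ newE F E {z} := by
    intro u hu h
    rw [mem_newE_pair]
    refine ⟨h, Or.inl hu, Or.inr (Finset.mem_singleton_self z), ?_⟩
    rintro ⟨_, h2⟩
    exact hz h2
  have hne : ∀ u ∈ E, u ≠ p → ¬ F.Adj u z := by
    intro u hu hup h
    have h1 := hmem u hu h
    have h2 := hmem p hp hadj
    obtain ⟨e, he⟩ := Finset.card_eq_one.1 hm
    rw [he, Finset.mem_singleton] at h1 h2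
    have h3 : s(u, z) = s(p, z) := h1.trans h2.symm
    exact hup (Sym2.congr_left.1 h3)
  have hX0 : ∀ y, X y ≠ 0 := fun y => by linarith [hX y]
  unfold psi
  rw [Finset.prod_union (Finset.disjoint_singleton_right.2 hz), Finset.prod_singleton,
    dW_insert_self hz, hm, pow_one, div_self (hX0 z), mul_one]
  have hcongr : ∀ u ∈ E, X u ^ dW F (E ∪ {z}) u / X u =
      (X u ^ dW F E u / X u) * (if u = p then X u else 1) := by
    intro u hu
    by_cases hup : u = p
    · subst hup
      rw [dW_insert_adj hz hu hadj, if_pos rfl, pow_succ]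
      have := hX0 u
      field_simp
    · rw [dW_insert_other hz hu (hne u hu hup), if_neg hup, mul_one]
  rw [Finset.prod_congr rfl hcongr, Finset.prod_mul_distrib, Finset.prod_ite_eq' E p,
    if_pos hp]

/-- A block: the potential does not drop, as all degrees are monotone and positive on the block. -/
lemma psi_block {X : α → ℝ} {E I : Finset α} (hX : ∀ y, 1 ≤ X y) (hdisj : Disjoint I E)
    (hdeg : ∀ w ∈ I, 1 ≤ dW F (E ∪ I) w) : psi F X E ≤ psi F X (E ∪ I) := by
  unfold psi
  rw [Finset.prod_union hdisj.symm]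
  have hpos : ∀ y, 0 < X y := fun y => by linarith [hX y]
  have h1 : ∏ y ∈ E, (X y ^ dW F E y / X y) ≤ ∏ y ∈ E, (X y ^ dW F (E ∪ I) y / X y) := by
    apply Finset.prod_le_prod
    · intro y _
      have := hpos y
      positivity
    · intro y _
      apply div_le_div_of_nonneg_right _ (hpos y).le
      exact pow_le_pow_right₀ (hX y) (dW_mono Finset.subset_union_left y)
  have h2 : (1 : ℝ) ≤ ∏ y ∈ I, (X y ^ dW F (E ∪ I) y / X y) := by
    calc (1 : ℝ) = ∏ _y ∈ I, (1 : ℝ) := (Finset.prod_const_one).symm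
      _ ≤ _ := by
        apply Finset.prod_le_prod (fun _ _ => zero_le_one)
        intro y hy
        rw [le_div_iff₀ (hpos y), one_mul]
        calc X y = X y ^ 1 := (pow_one _).symm
          _ ≤ _ := pow_le_pow_right₀ (hX y) (hdeg y hy)
  have h3 : 0 ≤ ∏ y ∈ E, (X y ^ dW F E y / X y) := by
    apply Finset.prod_nonneg
    intro y _
    have := hpos y
    positivity
  calc ∏ y ∈ E, (X y ^ dW F E y / X y) ≤ ∏ y ∈ E, (X y ^ dW F (E ∪ I) y / X y) := h1
    _ = (∏ y ∈ E, (X y ^ dW F (E ∪ I) y / X y)) * 1 := (mul_one _).symm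
    _ ≤ _ := mul_le_mul_of_nonneg_left h2 (h3.trans h1)

/-- The fibre for `m = 1`: the family agrees on `E`, `p ∈ E` is the neighbour of `z`: at most `deg (φ₀ p)` restrictions. -/
lemma fibre_single_one {S : Finset (α → V)} {E : Finset α} {z p : α} {φ₀ : α → V}
    (hhom : ∀ φ ∈ S, ∀ u v, F.Adj u v → H.Adj (φ u) (φ v))
    (hagree : ∀ φ ∈ S, ∀ x ∈ E, φ x = φ₀ x) (hp : p ∈ E) (hadj : F.Adj p z) :
    (S.image (proj (E ∪ {z}))).card ≤ (nb H (φ₀ p)).card := by
  obtain ⟨g, hg⟩ : ∃ g : V → α → Option V, g = fun w x =>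
      if x ∈ E ∪ {z} then some (if x = z then w else φ₀ x) else none := ⟨_, rfl⟩
  have hsub : S.image (proj (E ∪ {z})) ⊆ (nb H (φ₀ p)).image g := by
    intro a ha
    obtain ⟨φ, hφ, rfl⟩ := Finset.mem_image.1 ha
    refine Finset.mem_image.2 ⟨φ z, ?_, ?_⟩
    · rw [mem_nb, ← hagree φ hφ p hp]
      exact hhom φ hφ p z hadj
    · funext x
      rw [hg]
      unfold proj
      by_cases hx : x ∈ E ∪ {z}
      · simp only [if_pos hx]
        by_cases hxz : x = z
        · rw [if_pos hxz, hxz]
        · rw [if_neg hxz]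
          have hxE : x ∈ E := by
            rcases Finset.mem_union.1 hx with h | h
            · exact h
            · exact absurd (Finset.mem_singleton.1 h) hxz
          rw [hagree φ hφ x hxE]
      · simp only [if_neg hx]
  exact (Finset.card_le_card hsub).trans Finset.card_image_le

/-- The fibre for `m = 0`: at most the number of images of `z`. -/
lemma fibre_single_zero {S T : Finset (α → V)} {E : Finset α} {z : α} {φ₀ : α → V}
    (hST : S ⊆ T) (hagree : ∀ φ ∈ S, ∀ x ∈ E, φ x = φ₀ x) :
    (S.image (proj (E ∪ {z}))).card ≤ (T.image fun φ => φ z).card := by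
  obtain ⟨g, hg⟩ : ∃ g : V → α → Option V, g = fun w x =>
      if x ∈ E ∪ {z} then some (if x = z then w else φ₀ x) else none := ⟨_, rfl⟩
  have hsub : S.image (proj (E ∪ {z})) ⊆ (T.image fun φ => φ z).image g := by
    intro a ha
    obtain ⟨φ, hφ, rfl⟩ := Finset.mem_image.1 ha
    refine Finset.mem_image.2 ⟨φ z, Finset.mem_image_of_mem _ (hST hφ), ?_⟩
    funext x
    rw [hg]
    unfold proj
    by_cases hx : x ∈ E ∪ {z}
    · simp only [if_pos hx]
      by_cases hxz : x = z
      · rw [if_pos hxz, hxz]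
      · rw [if_neg hxz]
        have hxE : x ∈ E := by
          rcases Finset.mem_union.1 hx with h | h
          · exact h
          · exact absurd (Finset.mem_singleton.1 h) hxz
        rw [hagree φ hφ x hxE]
    · simp only [if_neg hx]
  exact (Finset.card_le_card hsub).trans Finset.card_image_le

/-- `K ≥ e`: the hypothesis on `K` gives `1 ≤ K`. -/
lemma one_le_K {K : ℝ} (hn : 2 ≤ n) (hq0 : 0 < q) (hL4 : 4 ≤ Real.log n) (hD : 1 ≤ (n : ℝ) * q)
    (hD2 : (Real.exp 1 * ((n : ℝ) * q)) ^ 2 < n)
    (hK : Real.exp 1 * Real.exp (2 * spKap n q) ≤ K) : 1 ≤ K := by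
  have hQ2 := spQ_of_D2 hn hq0 hD hD2
  have hQ1 : 0 < - Real.log q - 1 := by linarith
  have hG := spG_nonneg hD
  have hlog : 0 ≤ Real.log (Real.log n + 2) := Real.log_nonneg (by linarith)
  have hLam : 0 ≤ spLam n q := by
    unfold spLam
    linarith
  have hκ : 0 ≤ spKap n q := by
    unfold spKap
    positivity
  have h1 : 1 ≤ Real.exp 1 := Real.one_le_exp (by norm_num)
  have h2 : 1 ≤ Real.exp (2 * spKap n q) := Real.one_le_exp (by positivity)
  nlinarith

/-- The fibre over a minimal set. -/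
lemma tw_fibre (hG : GoodDensity n q H) (hn : 2 ≤ n) (hV : Fintype.card V ≤ n) (hq0 : 0 < q)
    (hqe : q ≤ Real.exp (-1)) (hL4 : 4 ≤ Real.log n) (hD : 1 ≤ (n : ℝ) * q)
    (hD2 : (Real.exp 1 * ((n : ℝ) * q)) ^ 2 < n)
    {K C₀ : ℝ} (hK : Real.exp 1 * Real.exp (2 * spKap n q) ≤ K) (hC₀ : 1 ≤ C₀)
    {S T : Finset (α → V)} (hST : S ⊆ T) (hinj : ∀ φ ∈ S, Function.Injective φ)
    (hhom : ∀ φ ∈ S, ∀ u v, F.Adj u v → H.Adj (φ u) (φ v))
    {X : α → ℝ} (hX : ∀ y, 1 ≤ X y)
    {φ₀ : α → V} (hdeg : ∀ y, ((nb H (φ₀ y)).card : ℝ) ≤ C₀ * ((n : ℝ) * q) * X y)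
    (hroot : ∀ y, ((T.image fun φ => φ y).card : ℝ) * X y ≤ n)
    {E I : Finset α} (hdisj : Disjoint I E) (hne : I.Nonempty)
    (hτ : 1 ≤ (n : ℝ) ^ I.card * (Real.exp 1 * q) ^ eT F (E ∪ I) I)
    (hmin : ∀ J ⊆ I, J.Nonempty → J ≠ I → Low n q F (E ∪ I) J)
    (hagree : ∀ φ ∈ S, ∀ x ∈ E, φ x = φ₀ x) :
    ((S.image (proj (E ∪ I))).card : ℝ) ≤
      (spA * C₀) ^ I.card * K ^ (newE F E I).card *
        ((n : ℝ) ^ I.card * q ^ (newE F E I).card) * (psi F X (E ∪ I) / psi F X E) := by
  have hn2 : (2 : ℝ) ≤ n := by exact_mod_cast hn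
  have hn0 : (0 : ℝ) < n := by linarith
  have hK1 : 1 ≤ K := one_le_K hn hq0 hL4 hD hD2 hK
  have hA1 := spA_one_le
  have hAC : 1 ≤ spA * C₀ := by nlinarith
  have hψ : 0 < psi F X E := psi_pos hX E
  have hτ' := hτ
  rw [eT_union_self hdisj] at hτ'
  have ha1 : 1 ≤ I.card := Finset.card_pos.2 hne
  have heq1 : Real.exp 1 * q ≤ 1 := by
    have h1 : Real.exp 1 * q ≤ Real.exp 1 * Real.exp (-1) :=
      mul_le_mul_of_nonneg_left hqe (Real.exp_pos _).le
    rw [← Real.exp_add] at h1
    simpa using h1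
  have heq0 : 0 < Real.exp 1 * q := by positivity
  by_cases ha : I.card = 1
  · -- a single vertex
    obtain ⟨z, rfl⟩ := Finset.card_eq_one.1 ha
    have hzE : z ∉ E := Finset.disjoint_left.1 hdisj (Finset.mem_singleton_self z)
    rw [Finset.card_singleton] at hτ' ⊢
    rw [pow_one] at hτ' ⊢
    have hm2 : (newE F E {z}).card < 2 := by
      by_contra hcon
      push Not at hcon
      have h1 : (Real.exp 1 * q) ^ (newE F E {z}).card ≤ (Real.exp 1 * q) ^ 2 :=
        pow_le_pow_of_le_one heq0.le heq1 hcon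
      have h2 : (n : ℝ) * (Real.exp 1 * q) ^ 2 < 1 := by
        have h3 : (Real.exp 1 * ((n : ℝ) * q)) ^ 2 = n * ((n : ℝ) * (Real.exp 1 * q) ^ 2) := by ring
        rw [h3] at hD2
        have h4 : (n : ℝ) * ((n : ℝ) * (Real.exp 1 * q) ^ 2) < n * 1 := by linarith
        exact lt_of_mul_lt_mul_left h4 hn0.le
      have h5 : (n : ℝ) * (Real.exp 1 * q) ^ (newE F E {z}).card ≤
          (n : ℝ) * (Real.exp 1 * q) ^ 2 := mul_le_mul_of_nonneg_left h1 hn0.le
      linarith
    by_cases hm0 : (newE F E {z}).card = 0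
    · rw [psi_single_zero hX hzE hm0, hm0]
      have h1 : ((S.image (proj (E ∪ {z}))).card : ℝ) ≤ ((T.image fun φ => φ z).card : ℝ) := by
        exact_mod_cast fibre_single_zero hST hagree
      have hXz : 0 < X z := by linarith [hX z]
      have h2 : ((T.image fun φ => φ z).card : ℝ) ≤ (n : ℝ) / X z := by
        rw [le_div_iff₀ hXz]
        exact hroot z
      have h3 : psi F X E / X z / psi F X E = 1 / X z := by
        field_simp
      rw [h3]
      simp only [pow_zero, pow_one, mul_one]
      have h4 : 0 ≤ (n : ℝ) / X z := by positivity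
      calc ((S.image (proj (E ∪ {z}))).card : ℝ) ≤ (n : ℝ) / X z := h1.trans h2
        _ ≤ (spA * C₀) * ((n : ℝ) / X z) := by nlinarith
        _ = _ := by ring
    · have hm1 : (newE F E {z}).card = 1 := by omega
      obtain ⟨e, he⟩ := Finset.card_eq_one.1 hm1
      have hemem : e ∈ newE F E {z} := by
        rw [he]
        exact Finset.mem_singleton_self e
      obtain ⟨p, hp, hadj⟩ : ∃ p ∈ E, F.Adj p z := by
        induction e using Sym2.ind with
        | _ a b =>
          obtain ⟨hab, ha', hb', hn'⟩ := mem_newE_pair.1 hemem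
          rw [Finset.mem_singleton] at ha' hb'
          by_cases haz : a = z
          · subst haz
            rcases hb' with hb' | hb'
            · exact ⟨b, hb', hab.symm⟩
            · exact absurd hb'.symm hab.ne
          · have haE : a ∈ E := by
              rcases ha' with ha' | ha'
              · exact ha'
              · exact absurd ha' haz
            have hbz : b = z := by
              rcases hb' with hb' | hb'
              · exact absurd ⟨haE, hb'⟩ hn'
              · exact hb'
            subst hbz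
            exact ⟨a, haE, hab⟩
      rw [psi_single_one hX hzE hm1 hp hadj, hm1]
      have h1 : ((S.image (proj (E ∪ {z}))).card : ℝ) ≤ ((nb H (φ₀ p)).card : ℝ) := by
        exact_mod_cast fibre_single_one hhom hagree hp hadj
      have h2 := hdeg p
      have h3 : psi F X E * X p / psi F X E = X p := by
        field_simp
      rw [h3]
      simp only [pow_one]
      have hXp : 0 < X p := by linarith [hX p]
      have hD0 : 0 < (n : ℝ) * q := by linarith
      have h4 : 0 < C₀ * ((n : ℝ) * q) * X p := by positivity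
      have h5 : 1 ≤ spA * K := by nlinarith
      calc ((S.image (proj (E ∪ {z}))).card : ℝ) ≤ C₀ * ((n : ℝ) * q) * X p := h1.trans h2
        _ = 1 * (C₀ * ((n : ℝ) * q) * X p) := (one_mul _).symm
        _ ≤ (spA * K) * (C₀ * ((n : ℝ) * q) * X p) := mul_le_mul_of_nonneg_right h5 h4.le
        _ = _ := by ring
  · -- at least two vertices
    have ha2 : 2 ≤ I.card := by omega
    have h1 := sp_block hG hn hV hq0 hqe hL4 hD hD2 hdisj hne ha2 hτ hmin hinj hhom hagree hK
    have hdegI : ∀ w ∈ I, 1 ≤ dW F (E ∪ I) w := by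
      intro w hw
      have hsub : ({w} : Finset α) ⊆ I := Finset.singleton_subset_iff.2 hw
      have hne' : ({w} : Finset α) ≠ I := by
        intro h
        rw [← h, Finset.card_singleton] at ha
        exact ha rfl
      have := low_card_lt hq0 hqe hD (hmin {w} hsub (Finset.singleton_nonempty w) hne')
      rw [Finset.card_singleton] at this
      have h3 : 2 ≤ dW F (E ∪ I) w := this
      omega
    have h2 := psi_block hX hdisj hdegI
    have h3 : 1 ≤ psi F X (E ∪ I) / psi F X E := by
      rwa [le_div_iff₀ hψ, one_mul]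
    have h4 : spA ^ I.card ≤ (spA * C₀) ^ I.card := by
      apply pow_le_pow_left₀ (by linarith)
      nlinarith
    have hK0 : 0 ≤ K := by linarith
    have hbase : 0 ≤ (n : ℝ) ^ I.card * q ^ (newE F E I).card := by positivity
    have h5 : spA ^ I.card * K ^ (newE F E I).card * ((n : ℝ) ^ I.card * q ^ (newE F E I).card) ≤
        (spA * C₀) ^ I.card * K ^ (newE F E I).card *
          ((n : ℝ) ^ I.card * q ^ (newE F E I).card) := by
      apply mul_le_mul_of_nonneg_right _ hbase
      exact mul_le_mul_of_nonneg_right h4 (by positivity)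
    have h6 : 0 ≤ (spA * C₀) ^ I.card * K ^ (newE F E I).card *
        ((n : ℝ) ^ I.card * q ^ (newE F E I).card) := by positivity
    calc ((S.image (proj (E ∪ I))).card : ℝ)
        ≤ (spA * C₀) ^ I.card * K ^ (newE F E I).card *
          ((n : ℝ) ^ I.card * q ^ (newE F E I).card) := h1.trans h5
      _ = (spA * C₀) ^ I.card * K ^ (newE F E I).card *
          ((n : ℝ) ^ I.card * q ^ (newE F E I).card) * 1 := (mul_one _).symm
      _ ≤ _ := mul_le_mul_of_nonneg_left h3 h6

/-- The chain: as `sp_main` (Lib/P064S/Main.lean), by induction on `W`, top piece `I` by `exists_min_not_low`.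
`|I| ≥ 2`: `sp_block` and `psi_block` (`low_card_lt` gives degrees `≥ 2` on `I`, as in `sp_fiber`).
`I = {z}`, `m ≥ 2` impossible (as in `sp_fiber`).  `m = 0`: fibre `≤ n / X z` by `hroot`, `psi_single_zero`.
`m = 1`: the unique neighbour `p ∈ E`; fibre `≤ C₀ D X p` by `hdeg`, `psi_single_one`.  Step by `card_image_proj_step_real`. -/
theorem tw_main (hG : GoodDensity n q H) (hn : 2 ≤ n) (hV : Fintype.card V ≤ n) (hq0 : 0 < q)
    (hqe : q ≤ Real.exp (-1)) (hL4 : 4 ≤ Real.log n) (hD : 1 ≤ (n : ℝ) * q)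
    (hD2 : (Real.exp 1 * ((n : ℝ) * q)) ^ 2 < n)
    {K C₀ : ℝ} (hK : Real.exp 1 * Real.exp (2 * spKap n q) ≤ K) (hC₀ : 1 ≤ C₀)
    {S : Finset (α → V)} (hinj : ∀ φ ∈ S, Function.Injective φ)
    (hhom : ∀ φ ∈ S, ∀ u v, F.Adj u v → H.Adj (φ u) (φ v))
    {X : α → ℝ} (hX : ∀ y, 1 ≤ X y)
    (hdeg : ∀ φ ∈ S, ∀ y, ((nb H (φ y)).card : ℝ) ≤ C₀ * ((n : ℝ) * q) * X y)
    (hroot : ∀ y, ((S.image fun φ => φ y).card : ℝ) * X y ≤ n) (k : ℕ) :
    ∀ W : Finset α, W.card ≤ k →
      ((S.image (proj W)).card : ℝ) ≤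
        (spA * C₀) ^ W.card * K ^ (eIn F W).card * ((n : ℝ) ^ W.card * q ^ (eIn F W).card) *
          psi F X W := by
  have hn0 : (0 : ℝ) < n := by
    have : 0 < n := by omega
    exact_mod_cast this
  have hn' : 1 ≤ n := by omega
  have hA1 := spA_one_le
  have hK1 : 1 ≤ K := one_le_K hn hq0 hL4 hD hD2 hK
  have hAC : 0 ≤ spA * C₀ := by nlinarith
  have hK0 : 0 ≤ K := by linarith
  induction k with
  | zero =>
    intro W hW
    have hW0 : W = ∅ := Finset.card_eq_zero.1 (Nat.le_zero.1 hW)
    subst hW0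
    have h1 : (S.image (proj (∅ : Finset α))).card ≤ 1 := by
      refine Finset.card_le_one.2 ?_
      intro a ha b hb
      obtain ⟨φ, _, rfl⟩ := Finset.mem_image.1 ha
      obtain ⟨φ', _, rfl⟩ := Finset.mem_image.1 hb
      funext x
      simp [proj]
    rw [eIn_empty]
    simp only [Finset.card_empty, pow_zero, mul_one, psi, Finset.prod_empty]
    exact_mod_cast h1
  | succ k ih =>
    intro W hW
    by_cases hne : W.Nonempty
    swap
    · rw [Finset.not_nonempty_iff_eq_empty] at hne
      subst hne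
      exact ih ∅ (by simp)
    by_cases hS : S.Nonempty
    swap
    · rw [Finset.not_nonempty_iff_eq_empty] at hS
      subst hS
      simp only [Finset.image_empty, Finset.card_empty, Nat.cast_zero]
      have := psi_pos (F := F) hX W
      positivity
    obtain ⟨φ₁, hφ₁⟩ := hS
    have hτ := not_low_of_member (W := W) hG hn' hq0 hqe (hinj φ₁ hφ₁) (hhom φ₁ hφ₁)
    obtain ⟨I, hIW, hIne, hIτ, hImin⟩ := exists_min_not_low (n := n) (q := q) (F := F) hne hτ
    obtain ⟨E, hE⟩ : ∃ E, E = W \ I := ⟨_, rfl⟩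
    have hU : E ∪ I = W := by rw [hE]; exact Finset.sdiff_union_of_subset hIW
    have hdisj : Disjoint I E := by rw [hE]; exact Finset.disjoint_sdiff
    have hcard : W.card = E.card + I.card := by
      rw [← hU]
      exact Finset.card_union_of_disjoint hdisj.symm
    have hIc : 0 < I.card := Finset.card_pos.2 hIne
    obtain ⟨m, hm⟩ : ∃ m, m = (newE F E I).card := ⟨_, rfl⟩
    have hcardE : (eIn F W).card = (eIn F E).card + m := by
      rw [← hU, hm]
      exact eIn_union_card
    have hψE := psi_pos (F := F) hX E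
    have hψW := psi_pos (F := F) hX W
    obtain ⟨B, hB⟩ : ∃ B : ℝ, B = (spA * C₀) ^ I.card * K ^ m * ((n : ℝ) ^ I.card * q ^ m) *
      (psi F X W / psi F X E) := ⟨_, rfl⟩
    have hB0 : 0 ≤ B := by
      rw [hB]
      positivity
    have hEW : E ⊆ W := by rw [hE]; exact Finset.sdiff_subset
    have hstep := card_image_proj_step_real S (D := E) (D' := W) (B := B) hEW hB0 (by
      intro φ₂ hφ₂
      have hsub : S.filter (fun φ => proj E φ = proj E φ₂) ⊆ S := Finset.filter_subset _ _
      have := tw_fibre (F := F) hG hn hV hq0 hqe hL4 hD hD2 hK hC₀ (S := S.filter (fun φ => proj E φ = proj E φ₂))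
        (T := S) hsub (fun φ hφ => hinj φ (hsub hφ)) (fun φ hφ => hhom φ (hsub hφ)) hX
        (φ₀ := φ₂) (hdeg φ₂ hφ₂) hroot hdisj hIne (by rw [hU]; exact hIτ) (by rw [hU]; exact hImin)
        (fun φ hφ x hx => proj_eq_apply hx (Finset.mem_filter.1 hφ).2)
      rw [hU, ← hm] at this
      rw [hB]
      exact this)
    have hih := ih E (by omega)
    calc ((S.image (proj W)).card : ℝ) ≤ B * (S.image (proj E)).card := hstep
      _ ≤ B * ((spA * C₀) ^ E.card * K ^ (eIn F E).card *
            ((n : ℝ) ^ E.card * q ^ (eIn F E).card) * psi F X E) :=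
          mul_le_mul_of_nonneg_left hih hB0
      _ = _ := by
          rw [hcard, hcardE, hB]
          field_simp
          ring

end Vale.Agent.Lib.P064W
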