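import Vale.Agent.Lib.P064Q.HBound
import Vale.Agent.Lib.P064Q.Anchor
import Vale.Agent.Lib.P064Q.Classes

/-!
Vertices of large degree are rare (notes/P064W_blueprint.md, part RA).
-/

open Finset

namespace Vale.Agent.Lib.P064W

open Vale.Agent.Lib.P064 Vale.Agent.Lib.P064E Vale.Agent.Lib.P064U Vale.Agent.Lib.P064Q
open scoped Classical

variable {V : Type} [Fintype V] {H : SimpleGraph V} {n : ℕ} {q l lam : ℝ}

/-- The numeric estimate behind `rare_level`. -/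
lemma rare_num {N h nn D A : ℝ} {j : ℕ} (hN0 : 0 ≤ N) (hh0 : 0 ≤ h) (hnn : 0 ≤ nn) (hD : 1 ≤ D)
    (hA : 4096 * D ≤ A) (hj : 512 * D ≤ (j : ℝ)) (hN : N ≤ 2 * h * (1 + (j : ℝ)))
    (hkey : h * (j.factorial : ℝ) ≤ 4 * Real.exp 1 * nn * (4 * D) ^ j) :
    N * (16 * (j : ℝ) / A) ≤ nn := by
  have hD0 : 0 < D := by linarith
  have hfac : (0 : ℝ) < (j.factorial : ℝ) := by exact_mod_cast Nat.factorial_pos j
  have hj0 : (0 : ℝ) ≤ (j : ℝ) := Nat.cast_nonneg j
  have hA0 : (4096 : ℝ) ≤ A := by linarith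
  -- factorial bound
  have hexp : (j : ℝ) ^ j / (j.factorial : ℝ) ≤ Real.exp j := Real.pow_div_factorial_le_exp (j : ℝ) hj0 j
  have hexp' : Real.exp (j : ℝ) = (Real.exp 1) ^ j := by
    rw [← Real.exp_nat_mul]; simp
  rw [hexp', div_le_iff₀ hfac] at hexp
  have h47 : Real.exp 1 / 128 ≤ 1 / 47 := by
    have := Real.exp_one_lt_d9
    rw [div_le_div_iff₀ (by norm_num) (by norm_num)]
    linarith
  have hpow : (4 * D) ^ j ≤ (j.factorial : ℝ) * (1 / 47) ^ j := by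
    have h1 : (4 * D) ^ j = (512 * D) ^ j * (1 / 128) ^ j := by
      rw [← mul_pow]; congr 1; ring
    have h2 : (512 * D) ^ j ≤ (j : ℝ) ^ j := pow_le_pow_left₀ (by positivity) hj j
    have h3 : (512 * D) ^ j * (1 / 128 : ℝ) ^ j ≤
        ((Real.exp 1) ^ j * (j.factorial : ℝ)) * (1 / 128 : ℝ) ^ j :=
      mul_le_mul_of_nonneg_right (h2.trans hexp) (by positivity)
    have h4 : ((Real.exp 1) ^ j * (j.factorial : ℝ)) * (1 / 128 : ℝ) ^ j =
        (j.factorial : ℝ) * (Real.exp 1 / 128) ^ j := by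
      rw [div_pow, div_pow]; ring
    have h5 : (Real.exp 1 / 128) ^ j ≤ (1 / 47 : ℝ) ^ j :=
      pow_le_pow_left₀ (by positivity) h47 j
    rw [h1]
    calc (512 * D) ^ j * (1 / 128 : ℝ) ^ j ≤ _ := h3
      _ = _ := h4
      _ ≤ _ := mul_le_mul_of_nonneg_left h5 hfac.le
  have hh_le : h ≤ 4 * Real.exp 1 * nn * (1 / 47) ^ j := by
    have h6 : h * (j.factorial : ℝ) ≤ (4 * Real.exp 1 * nn * (1 / 47) ^ j) * (j.factorial : ℝ) := by
      calc h * (j.factorial : ℝ) ≤ 4 * Real.exp 1 * nn * (4 * D) ^ j := hkey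
        _ ≤ 4 * Real.exp 1 * nn * ((j.factorial : ℝ) * (1 / 47) ^ j) :=
            mul_le_mul_of_nonneg_left hpow (by positivity)
        _ = _ := by ring
    exact le_of_mul_le_mul_right h6 hfac
  -- the polynomial factor is beaten
  have hpoly : (1 + (j : ℝ)) * (j : ℝ) * (1 / 47 : ℝ) ^ j ≤ 1 := by
    have hlt : j < 2 ^ j := Nat.lt_pow_self (by norm_num)
    have h7 : (1 + (j : ℝ)) ≤ 2 ^ j := by
      have : 1 + j ≤ 2 ^ j := by omega
      exact_mod_cast this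
    have h8 : (j : ℝ) ≤ 2 ^ j := by exact_mod_cast hlt.le
    have h9 : (1 + (j : ℝ)) * (j : ℝ) ≤ 2 ^ j * 2 ^ j :=
      mul_le_mul h7 h8 hj0 (by positivity)
    have h10 : ((2 : ℝ) ^ j * 2 ^ j) * (1 / 47 : ℝ) ^ j ≤ 1 := by
      rw [← mul_pow, ← mul_pow]
      apply pow_le_one₀ (by norm_num) (by norm_num)
    calc (1 + (j : ℝ)) * (j : ℝ) * (1 / 47 : ℝ) ^ j
        ≤ ((2 : ℝ) ^ j * 2 ^ j) * (1 / 47 : ℝ) ^ j :=
          mul_le_mul_of_nonneg_right h9 (by positivity)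
      _ ≤ 1 := h10
  have hfrac : 16 * (j : ℝ) / A ≤ 16 * (j : ℝ) / 4096 :=
    div_le_div_of_nonneg_left (by positivity) (by norm_num) hA0
  have hfrac0 : 0 ≤ 16 * (j : ℝ) / 4096 := by positivity
  have he : Real.exp 1 ≤ 3 := by
    have := Real.exp_one_lt_d9
    linarith
  calc N * (16 * (j : ℝ) / A) ≤ N * (16 * (j : ℝ) / 4096) :=
        mul_le_mul_of_nonneg_left hfrac hN0
    _ ≤ (2 * h * (1 + (j : ℝ))) * (16 * (j : ℝ) / 4096) :=
        mul_le_mul_of_nonneg_right hN hfrac0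
    _ = h * ((1 + (j : ℝ)) * (j : ℝ) / 128) := by ring
    _ ≤ (4 * Real.exp 1 * nn * (1 / 47) ^ j) * ((1 + (j : ℝ)) * (j : ℝ) / 128) :=
        mul_le_mul_of_nonneg_right hh_le (by positivity)
    _ = (Real.exp 1 / 32) * nn * ((1 + (j : ℝ)) * (j : ℝ) * (1 / 47 : ℝ) ^ j) := by ring
    _ ≤ (Real.exp 1 / 32) * nn * 1 :=
        mul_le_mul_of_nonneg_left hpoly (by positivity)
    _ ≤ nn := by
        have : Real.exp 1 / 32 ≤ 1 := by linarith
        nlinarith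

/-- The number of vertices of degree at least `2^i`, `i ≥ s₁`, times `2^(i+1) / A₁`, is at most `n`.
Proof: `anchorQ` with `β = Unit`, `G = ⊥`, `E` = the maps to such vertices, `Dh = {()}`, `j = 2^(i-3)` (`N(v)` misses `v`, so `hlight` holds): `|{v}| ≤ |A| ≤ 2 h (1 + j)`.
`copies_group_bound` for `W = decoQ ⊥ j` (one star with `j` leaves; `j ≥ 1` gives an edge), group `forestGroup`, with `RootedT ⊥ () id 0`, `forest_preserves`, `aut_lower`, `card_plus`, `decoQ_edges`: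
`h j! ≤ e 4^(1+j) n^(1+j) q^j`.  So the count is at most `2 e (1 + j) 4^(1+j) n D^j / j!`.  `j ≥ 512 D` (as `4096 D ≤ A₁ ≤ 2^i`), `D^j 4^j / j! ≤ (4 e D / j)^j ≤ (1/47)^j`, `2^(i+1) = 16 j`, `A₁ ≥ 4096`. -/
theorem rare_level (hG : GoodDensity n q H) {Δ A₁ : ℝ} {s₁ I : ℕ}
    (hp : QPar n q l lam Δ A₁ s₁ I) {i : ℕ} (hi : s₁ ≤ i) :
    ((univ.filter fun v : V => 2 ^ i ≤ (nb H v).card).card : ℝ) * (2 ^ (i + 1) / A₁) ≤ n := by
  have hs := hp.std
  have hD1 := hp.D1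
  have hi12 : 12 ≤ i := le_trans hp.s12 hi
  have hA₁pos : 0 < A₁ := by rw [hp.A₁eq]; positivity
  have hA₁le : A₁ ≤ 2 ^ i := by
    rw [hp.A₁eq]; exact pow_le_pow_right₀ (by norm_num) hi
  have hq0 := hs.q0
  have hq1 := hs.q1
  have hlam := hs.lam1
  have hl : 0 < l := by have := hs.l1; linarith
  have hAlow := hp.Alow
  have hA4096 : (4096 : ℝ) ≤ A₁ := by nlinarith
  have hρ := hp.rho
  have hA8 : 8 * l ≤ A₁ * lam := by nlinarith
  obtain ⟨j0, hj0⟩ : ∃ j0 : ℕ, j0 = 2 ^ (i - 3) := ⟨_, rfl⟩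
  have hj0pos : 1 ≤ j0 := by rw [hj0]; exact Nat.one_le_two_pow
  have h2i : (2 : ℝ) ^ i = 8 * (j0 : ℝ) := by
    have : i = (i - 3) + 3 := by omega
    rw [hj0]; push_cast
    conv_lhs => rw [this]
    rw [pow_add]; norm_num; ring
  have h2i1 : (2 : ℝ) ^ (i + 1) = 16 * (j0 : ℝ) := by
    rw [pow_succ, h2i]; ring
  obtain ⟨W, hW⟩ : ∃ W : Finset V, W = univ.filter fun v : V => 2 ^ i ≤ (nb H v).card := ⟨_, rfl⟩
  rw [← hW, h2i1]
  let G : SimpleGraph Unit := ⊥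
  let jF : Unit → ℕ := fun _ => j0
  let iF : Unit → ℕ := fun _ => i
  let E : Finset (Unit → V) := W.image (fun v _ => v)
  have hE : ∀ φ ∈ E, φ ∈ emb G H := by
    intro φ _
    refine mem_emb.2 ⟨?_, ?_⟩
    · intro a b _
      exact Subsingleton.elim a b
    · intro u v huv
      exact absurd huv (by simp [G])
  have hφ : ∀ φ ∈ E, ∃ v ∈ W, ∀ x, φ x = v := by
    intro φ hφ
    obtain ⟨v, hv, rfl⟩ := Finset.mem_image.1 hφ
    exact ⟨v, hv, fun _ => rfl⟩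
  obtain ⟨h, ψ, A, hinj, hhom, hdis, hAcard, hcov⟩ := anchorQ hG hs hA₁pos hA8 hρ G E hE
    (univ : Finset Unit) iF jF (fun x => by simp [jF, iF, hj0])
    (fun x _ => by simp only [iF]; omega) (fun x _ => hA₁le)
    (by
      intro φ hφE x _
      obtain ⟨v, hv, hvx⟩ := hφ φ hφE
      rw [hvx]
      rw [hW] at hv
      exact (Finset.mem_filter.1 hv).2)
    (by
      intro φ hφE x _
      obtain ⟨v, hv, hvx⟩ := hφ φ hφE
      have hempty : (nb H (φ x)) ∩ univ.image φ = ∅ := by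
        apply Finset.eq_empty_of_forall_notMem
        intro w hw
        obtain ⟨hw1, hw2⟩ := Finset.mem_inter.1 hw
        obtain ⟨y, _, hy⟩ := Finset.mem_image.1 hw2
        have hadj := mem_nb.1 hw1
        rw [hvx x, ← hy, hvx y] at hadj
        exact H.loopless.1 _ hadj
      rw [hempty]
      simp)
  have hsum : (∑ x : Unit, jF x) = j0 := by simp [jF]
  have hWA : W ⊆ A := by
    intro v hv
    obtain ⟨z, hz⟩ := hcov (fun _ => v) (Finset.mem_image.2 ⟨v, hv, rfl⟩)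
    exact hz
  have hNA : (W.card : ℝ) ≤ A.card := by exact_mod_cast Finset.card_le_card hWA
  have hAcard' : (A.card : ℝ) ≤ 2 * (h : ℝ) * (1 + (j0 : ℝ)) := by
    have := hAcard
    rw [hsum] at this
    simpa using this
  have hN : (W.card : ℝ) ≤ 2 * (h : ℝ) * (1 + (j0 : ℝ)) := hNA.trans hAcard'
  have hN0 : (0 : ℝ) ≤ (W.card : ℝ) := Nat.cast_nonneg _
  have hnn : (0 : ℝ) ≤ (n : ℝ) := Nat.cast_nonneg _
  have hjD : 512 * ((n : ℝ) * q) ≤ (j0 : ℝ) := by
    have : A₁ ≤ 8 * (j0 : ℝ) := by rw [← h2i]; exact hA₁le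
    linarith
  rcases Nat.eq_zero_or_pos h with h0 | hpos
  · subst h0
    have hW0 : (W.card : ℝ) ≤ 0 := by simpa using hN
    have hW1 : (W.card : ℝ) = 0 := le_antisymm hW0 hN0
    rw [hW1]
    simp
  have hT : RootedT G () id (fun _ => 0) :=
    ⟨rfl, fun v hv => absurd (Subsingleton.elim v ()) hv⟩
  have hedges : (decoQ G jF).edgeSet.ncard = (eIn G univ).card + j0 := by
    rw [decoQ_edges, hsum]
  have hWne : (decoQ G jF).edgeSet.Nonempty := by
    apply Set.nonempty_of_ncard_ne_zero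
    rw [hedges]
    omega
  have hb := copies_group_bound hG hq0 hq1 (decoQ G jF) hWne
    (forestGroup (SQ G () id jF) (parQ G () id jF)) (forest_preserves hT jF) hpos ψ hinj hhom hdis
  have hcard : Fintype.card (Plus Unit jF) = 1 + j0 := by
    rw [card_plus, hsum]; simp
  rw [hcard, hedges] at hb
  have ha := aut_lower hT jF
  rw [hcard] at ha
  have hfact : j0.factorial ≤
      Nat.card (forestGroup (SQ G () id jF) (parQ G () id jF)) * 4 ^ (1 + j0) := by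
    refine le_trans ?_ ha
    simp only [Fintype.prod_unique]
    exact Nat.factorial_le (Nat.le_add_left _ _)
  have hfact' : (j0.factorial : ℝ) ≤
      (Nat.card (forestGroup (SQ G () id jF) (parQ G () id jF)) : ℝ) * 4 ^ (1 + j0) := by
    exact_mod_cast hfact
  have hqpow : q ^ ((eIn G univ).card + j0) ≤ q ^ j0 :=
    pow_le_pow_of_le_one hq0.le hq1 (Nat.le_add_left _ _)
  have hh0 : (0 : ℝ) ≤ (h : ℝ) := Nat.cast_nonneg _
  have hkey : (h : ℝ) * (j0.factorial : ℝ) ≤ 4 * Real.exp 1 * (n : ℝ) * (4 * ((n : ℝ) * q)) ^ j0 := by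
    have h1 : (h : ℝ) * (j0.factorial : ℝ) ≤ (h : ℝ) *
        ((Nat.card (forestGroup (SQ G () id jF) (parQ G () id jF)) : ℝ) * 4 ^ (1 + j0)) :=
      mul_le_mul_of_nonneg_left hfact' hh0
    have h2 : (h : ℝ) * (Nat.card (forestGroup (SQ G () id jF) (parQ G () id jF)) : ℝ) ≤
        Real.exp 1 * ((n : ℝ) ^ (1 + j0) * q ^ j0) := by
      refine hb.trans ?_
      apply mul_le_mul_of_nonneg_left _ (Real.exp_pos 1).le
      exact mul_le_mul_of_nonneg_left hqpow (by positivity)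
    calc (h : ℝ) * (j0.factorial : ℝ) ≤ (h : ℝ) *
        ((Nat.card (forestGroup (SQ G () id jF) (parQ G () id jF)) : ℝ) * 4 ^ (1 + j0)) := h1
      _ = ((h : ℝ) * (Nat.card (forestGroup (SQ G () id jF) (parQ G () id jF)) : ℝ)) * 4 ^ (1 + j0) := by ring
      _ ≤ (Real.exp 1 * ((n : ℝ) ^ (1 + j0) * q ^ j0)) * 4 ^ (1 + j0) :=
          mul_le_mul_of_nonneg_right h2 (by positivity)
      _ = 4 * Real.exp 1 * (n : ℝ) * (4 * ((n : ℝ) * q)) ^ j0 := by
          rw [pow_add, pow_add, mul_pow, mul_pow]; ring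
  exact rare_num hN0 hh0 hnn hD1 hAlow hjD hN hkey

end Vale.Agent.Lib.P064W
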