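import Vale.Agent.Lib.P064W.Chain
import Vale.Agent.Lib.P064W.Rare

/-!
Embeddings with given degree levels: the plain walk with vertex dependent bounds (notes/P064W_blueprint.md, part LV).
-/

open Finset

namespace Vale.Agent.Lib.P064W

open Vale.Agent.Lib.P064 Vale.Agent.Lib.P064E Vale.Agent.Lib.P064U Vale.Agent.Lib.P064Q
open scoped Classical

variable {V β : Type} [Fintype V] [Fintype β] {H : SimpleGraph V} {n : ℕ} {q l lam : ℝ}

/-- The level of `y` under `φ`: `none` if the degree is below `A₁`. -/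
noncomputable def levelOf (H : SimpleGraph V) (A₁ : ℝ) (I : ℕ) (φ : β → V) (y : β) : Option (Fin I) :=
  if ((nb H (φ y)).card : ℝ) < A₁ then none
  else if h : Nat.log 2 (nb H (φ y)).card < I then some ⟨_, h⟩ else none

/-- The excess degree factor of a level. -/
noncomputable def xOf {I : ℕ} (A₁ : ℝ) : Option (Fin I) → ℝ
  | none => 1
  | some i => 2 ^ ((i : ℕ) + 1) / A₁

/-- The embeddings with given levels. -/
noncomputable def typedL (G : SimpleGraph β) (H : SimpleGraph V) (A₁ : ℝ) (I : ℕ)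
    (lv : β → Option (Fin I)) : Finset (β → V) :=
  (emb G H).filter fun φ => ∀ y, levelOf H A₁ I φ y = lv y

/-- Facts on levels for a member of `emb`: the degree is below `A₁` at `none`; at `some i`: `s₁ ≤ i`, `2^i ≤ deg < 2^(i+1)`, `2^i ≤ Δ` (`degree_bound` as in `classOf_spec`). -/
lemma levelOf_spec (hG : GoodDensity n q H) {Δ A₁ : ℝ} {s₁ I : ℕ} (hV : Fintype.card V ≤ n)
    (hp : QPar n q l lam Δ A₁ s₁ I) {φ : β → V} (y : β) :
    (levelOf H A₁ I φ y = none → ((nb H (φ y)).card : ℝ) < A₁) ∧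
    ∀ i : Fin I, levelOf H A₁ I φ y = some i →
      s₁ ≤ (i : ℕ) ∧ 2 ^ (i : ℕ) ≤ (nb H (φ y)).card ∧ (nb H (φ y)).card < 2 ^ ((i : ℕ) + 1) ∧
        (2 : ℝ) ^ (i : ℕ) ≤ Δ := by
  classical
  have hstd := hp.std
  have hq1 : q ≤ 1 := hstd.q1
  have hdeg : ((nb H (φ y)).card : ℝ) ≤ Δ := by
    have h := degree_bound hG hstd.q0 hq1 hstd.n1 hV hp.D1 (φ y)
    have hnb : ((univ : Finset V).filter (fun b => H.Adj (φ y) b)) = nb H (φ y) := rfl
    rw [hnb] at h
    have hl := hstd.l_eq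
    have hd := hp.Δdeg
    rw [hl] at hd
    linarith
  set a := (nb H (φ y)).card with ha
  have hA₁ : A₁ = 2 ^ s₁ := hp.A₁eq
  have hbig : (A₁ ≤ (a : ℝ)) → s₁ ≤ Nat.log 2 a ∧ a ≠ 0 := by
    intro hA
    have h2 : (2 : ℝ) ^ s₁ ≤ (a : ℝ) := by rw [← hA₁]; exact hA
    have h3 : 2 ^ s₁ ≤ a := by exact_mod_cast h2
    have ha0 : a ≠ 0 := by
      intro h0
      rw [h0] at h3
      have : 0 < 2 ^ s₁ := by positivity
      omega
    exact ⟨Nat.le_log_of_pow_le (by norm_num) h3, ha0⟩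
  have hlt : a < 2 ^ (Nat.log 2 a + 1) := Nat.lt_pow_succ_log_self (by norm_num) a
  have hlogI : a ≠ 0 → Nat.log 2 a < I := by
    intro ha0
    have h1 : 2 ^ Nat.log 2 a ≤ a := Nat.pow_log_le_self 2 ha0
    have h2 : ((2 ^ Nat.log 2 a : ℕ) : ℝ) ≤ (a : ℝ) := by exact_mod_cast h1
    have h3 : (2 : ℝ) ^ Nat.log 2 a < 2 ^ I := by
      push_cast at h2
      exact lt_of_le_of_lt (h2.trans hdeg) hp.ΔI
    exact (pow_lt_pow_iff_right₀ (by norm_num : (1 : ℝ) < 2)).1 h3
  unfold levelOf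
  by_cases h1 : (a : ℝ) < A₁
  · refine ⟨fun _ => h1, ?_⟩
    intro i hi
    rw [if_pos h1] at hi
    exact absurd hi (by simp)
  · obtain ⟨hs, ha0⟩ := hbig (not_lt.1 h1)
    have hI := hlogI ha0
    refine ⟨?_, ?_⟩
    · intro h
      rw [if_neg h1, dif_pos hI] at h
      exact absurd h (by simp)
    · intro i hi
      rw [if_neg h1, dif_pos hI] at hi
      have hi' : (⟨Nat.log 2 a, hI⟩ : Fin I) = i := Option.some_injective _ hi
      have hival : (i : ℕ) = Nat.log 2 a := by rw [← hi']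
      rw [hival]
      have hpw : 2 ^ Nat.log 2 a ≤ a := Nat.pow_log_le_self 2 ha0
      refine ⟨hs, hpw, hlt, ?_⟩
      have h2 : ((2 ^ Nat.log 2 a : ℕ) : ℝ) ≤ (a : ℝ) := by exact_mod_cast hpw
      push_cast at h2
      exact h2.trans hdeg

/-- The walk side: `tw_main` with `W = univ`, `S = typedL`, `X = xOf ∘ lv`, `C₀ = 8192`, `K = exp 3`.
`hdeg`: `levelOf_spec`, `A₁ ≤ 8192 D`.  `hroot`: at `none` `|V| ≤ n`; at `some i` `rare_level`.  `proj univ` is injective (`proj_univ_injective`); `dW G univ y = deg y ≥ 1`. -/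
theorem walk_side (hG : GoodDensity n q H) {Δ A₁ : ℝ} {s₁ I : ℕ} (hn : 2 ≤ n)
    (hV : Fintype.card V ≤ n) (hp : QPar n q l lam Δ A₁ s₁ I) (hA8 : A₁ ≤ 8192 * ((n : ℝ) * q))
    (hqe : q ≤ Real.exp (-1)) (hL4 : 4 ≤ Real.log n)
    (hD2 : (Real.exp 1 * ((n : ℝ) * q)) ^ 2 < n) (hκ : spKap n q ≤ 1)
    (G : SimpleGraph β) (hiso : ∀ x, ∃ y, G.Adj x y) (lv : β → Option (Fin I))
    (hne : (typedL G H A₁ I lv).Nonempty) :
    ((typedL G H A₁ I lv).card : ℝ) ≤
      (spA * 8192) ^ Fintype.card β * Real.exp 3 ^ (eIn G univ).card *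
        ((n : ℝ) ^ Fintype.card β * q ^ (eIn G univ).card) *
        ∏ y, (xOf A₁ (lv y)) ^ ((nb G y).card - 1) := by
  classical
  set S := typedL G H A₁ I lv with hS
  have hstd := hp.std
  have hA₁pos : 0 < A₁ := by rw [hp.A₁eq]; positivity
  have hD1 := hp.D1
  have hmem : ∀ φ ∈ S, φ ∈ emb G H ∧ ∀ y, levelOf H A₁ I φ y = lv y := by
    intro φ hφ
    exact Finset.mem_filter.1 hφ
  obtain ⟨φ₀, hφ₀⟩ := hne
  have hs₁ : ∀ y (i : Fin I), lv y = some i → s₁ ≤ (i : ℕ) := by
    intro y i hi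
    have h1 := (hmem φ₀ hφ₀).2 y
    rw [hi] at h1
    exact ((levelOf_spec hG hV hp (φ := φ₀) y).2 i h1).1
  set X : β → ℝ := fun y => xOf A₁ (lv y) with hXdef
  have hX : ∀ y, 1 ≤ X y := by
    intro y
    simp only [hXdef]
    cases hy : lv y with
    | none => simp [xOf]
    | some i =>
      simp only [xOf]
      rw [one_le_div hA₁pos, hp.A₁eq]
      have h1 := hs₁ y i hy
      exact pow_le_pow_right₀ (by norm_num) (by omega)
  have hdeg : ∀ φ ∈ S, ∀ y, ((nb H (φ y)).card : ℝ) ≤ 8192 * ((n : ℝ) * q) * X y := by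
    intro φ hφ y
    have h1 := (hmem φ hφ).2 y
    have hspec := levelOf_spec hG hV hp (φ := φ) y
    simp only [hXdef]
    cases hy : lv y with
    | none =>
      rw [hy] at h1
      have h2 := hspec.1 h1
      simp only [xOf, mul_one]
      linarith
    | some i =>
      rw [hy] at h1
      obtain ⟨_, _, h3, _⟩ := hspec.2 i h1
      have h4 : ((nb H (φ y)).card : ℝ) ≤ 2 ^ ((i : ℕ) + 1) := by exact_mod_cast h3.le
      simp only [xOf]
      have h5 : (2 : ℝ) ^ ((i : ℕ) + 1) = A₁ * (2 ^ ((i : ℕ) + 1) / A₁) := by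
        field_simp
      have h6 : (0 : ℝ) ≤ 2 ^ ((i : ℕ) + 1) / A₁ := by positivity
      calc ((nb H (φ y)).card : ℝ) ≤ A₁ * (2 ^ ((i : ℕ) + 1) / A₁) := by rw [← h5]; exact h4
        _ ≤ 8192 * ((n : ℝ) * q) * (2 ^ ((i : ℕ) + 1) / A₁) :=
            mul_le_mul_of_nonneg_right hA8 h6
  have hroot : ∀ y, ((S.image fun φ => φ y).card : ℝ) * X y ≤ n := by
    intro y
    simp only [hXdef]
    cases hy : lv y with
    | none =>
      simp only [xOf, mul_one]
      have h1 : (S.image fun φ => φ y).card ≤ Fintype.card V := Finset.card_le_univ _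
      exact_mod_cast h1.trans hV
    | some i =>
      have hi := hs₁ y i hy
      have hr := rare_level hG hp (i := (i : ℕ)) hi
      have hsub : (S.image fun φ => φ y) ⊆
          univ.filter fun v : V => 2 ^ (i : ℕ) ≤ (nb H v).card := by
        intro v hv
        obtain ⟨φ, hφ, rfl⟩ := Finset.mem_image.1 hv
        have h1 := (hmem φ hφ).2 y
        rw [hy] at h1
        obtain ⟨_, h3, _, _⟩ := (levelOf_spec hG hV hp (φ := φ) y).2 i h1
        exact Finset.mem_filter.2 ⟨Finset.mem_univ _, h3⟩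
      have hcard : ((S.image fun φ => φ y).card : ℝ) ≤
          ((univ.filter fun v : V => 2 ^ (i : ℕ) ≤ (nb H v).card).card : ℝ) := by
        exact_mod_cast Finset.card_le_card hsub
      simp only [xOf]
      refine le_trans (mul_le_mul_of_nonneg_right hcard (by positivity)) hr
  have hK : Real.exp 1 * Real.exp (2 * spKap n q) ≤ Real.exp 3 := by
    rw [← Real.exp_add, Real.exp_le_exp]
    linarith
  have hmain := tw_main (F := G) hG hn hV hstd.q0 hqe hL4 hD1 hD2 hK (C₀ := 8192) (by norm_num)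
    (S := S) (fun φ hφ => (mem_emb.1 (hmem φ hφ).1).1) (fun φ hφ => (mem_emb.1 (hmem φ hφ).1).2)
    hX hdeg hroot (Fintype.card β) univ (by simp)
  have hinj : (S.image (proj (univ : Finset β))).card = S.card :=
    Finset.card_image_of_injective _ proj_univ_injective
  rw [hinj, Finset.card_univ] at hmain
  have hpsi : psi G X univ = ∏ y, (xOf A₁ (lv y)) ^ ((nb G y).card - 1) := by
    unfold psi
    refine Finset.prod_congr rfl ?_
    intro y _
    have hd : dW G univ y = (nb G y).card := by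
      rw [P064.dW_eq_nbW (Finset.mem_univ y)]
      congr 1
    have hpos : 1 ≤ (nb G y).card := by
      obtain ⟨w, hw⟩ := hiso y
      exact Finset.card_pos.2 ⟨w, mem_nb.2 hw⟩
    rw [hd]
    have hX0 : X y ≠ 0 := by
      have := hX y
      linarith
    obtain ⟨d, hd'⟩ : ∃ d, (nb G y).card = d + 1 := ⟨(nb G y).card - 1, by omega⟩
    rw [hd']
    simp only [Nat.add_sub_cancel]
    rw [pow_succ, mul_div_assoc, div_self hX0, mul_one]
  rw [hpsi] at hmain
  exact hmain

end Vale.Agent.Lib.P064W
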