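import Mathlib

/-!
The numeric heart: the smaller of two powers (notes/P064W_blueprint.md, part NM).
-/

namespace Vale.Agent.Lib.P064W

/-- If `A X = Y'`, `u + w ≤ (26/25) e` then `A^u` or `X^w` is at most `exp ((13/50) (log Y') e)`. (Logs `a, b ≥ 0`, `a + b = log Y'`;
if both fail then `(a u) (b w) > (13/50 log Y' e)^2`, but `a b ≤ (a+b)^2/4`, `u w ≤ (u+w)^2/4`.) -/
theorem min_pow_le {A X Y' : ℝ} {u w e : ℕ} (hA : 1 ≤ A) (hX : 1 ≤ X) (hY : A * X = Y')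
    (huw : 25 * (u + w) ≤ 26 * e) :
    A ^ u ≤ Real.exp (13 / 50 * Real.log Y' * e) ∨ X ^ w ≤ Real.exp (13 / 50 * Real.log Y' * e) := by
  have hA0 : 0 < A := by linarith
  have hX0 : 0 < X := by linarith
  have ha : 0 ≤ Real.log A := Real.log_nonneg hA
  have hb : 0 ≤ Real.log X := Real.log_nonneg hX
  have hlog : Real.log Y' = Real.log A + Real.log X := by
    rw [← hY, Real.log_mul hA0.ne' hX0.ne']
  have hpowA : A ^ u = Real.exp ((u : ℝ) * Real.log A) := by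
    rw [← Real.rpow_natCast, Real.rpow_def_of_pos hA0]; ring_nf
  have hpowX : X ^ w = Real.exp ((w : ℝ) * Real.log X) := by
    rw [← Real.rpow_natCast, Real.rpow_def_of_pos hX0]; ring_nf
  rw [hpowA, hpowX, Real.exp_le_exp, Real.exp_le_exp, hlog]
  by_contra hcon
  push Not at hcon
  obtain ⟨h1, h2⟩ := hcon
  set a := Real.log A with ha_def
  set b := Real.log X with hb_def
  have huw' : (25 : ℝ) * ((u : ℝ) + (w : ℝ)) ≤ 26 * (e : ℝ) := by exact_mod_cast huw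
  have hu0 : (0 : ℝ) ≤ (u : ℝ) := Nat.cast_nonneg u
  have hw0 : (0 : ℝ) ≤ (w : ℝ) := Nat.cast_nonneg w
  have he0 : (0 : ℝ) ≤ (e : ℝ) := Nat.cast_nonneg e
  set T := 13 / 50 * (a + b) * (e : ℝ) with hT
  have hT0 : 0 ≤ T := by positivity
  have hprod : T * T < ((u : ℝ) * a) * ((w : ℝ) * b) :=
    mul_lt_mul'' h1 h2 hT0 hT0
  have h3 : ((u : ℝ) * a) * ((w : ℝ) * b) = ((u : ℝ) * (w : ℝ)) * (a * b) := by ring
  have hab : a * b ≤ (a + b) ^ 2 / 4 := by nlinarith [sq_nonneg (a - b)]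
  have huv : (u : ℝ) * (w : ℝ) ≤ ((u : ℝ) + (w : ℝ)) ^ 2 / 4 := by nlinarith [sq_nonneg ((u : ℝ) - (w : ℝ))]
  have huv2 : ((u : ℝ) + (w : ℝ)) ≤ 26 / 25 * (e : ℝ) := by linarith
  have huv3 : ((u : ℝ) + (w : ℝ)) ^ 2 ≤ (26 / 25 * (e : ℝ)) ^ 2 := by
    apply pow_le_pow_left₀ (by positivity) huv2
  have hab0 : 0 ≤ a * b := mul_nonneg ha hb
  have huw0 : 0 ≤ (u : ℝ) * (w : ℝ) := mul_nonneg hu0 hw0
  have hfinal : ((u : ℝ) * (w : ℝ)) * (a * b) ≤ ((26 / 25 * (e : ℝ)) ^ 2 / 4) * ((a + b) ^ 2 / 4) := by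
    apply mul_le_mul _ hab hab0 (by positivity)
    linarith
  have hTT : T * T = ((26 / 25 * (e : ℝ)) ^ 2 / 4) * ((a + b) ^ 2 / 4) := by
    rw [hT]; ring
  nlinarith

end Vale.Agent.Lib.P064W
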