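import Vale.Agent.Lib.P064W.Side
import Vale.Agent.Lib.P064W.Levels
import Vale.Agent.Lib.P064W.MinNum

/-!
The facts on degrees and types used to combine the two bounds (notes/P064W_blueprint.md, part CB1).
-/

open Finset

namespace Vale.Agent.Lib.P064W

open Vale.Agent.Lib.P064 Vale.Agent.Lib.P064E Vale.Agent.Lib.P064U Vale.Agent.Lib.P064Q
open scoped Classical

variable {V β : Type} [Fintype V] [Fintype β] {H : SimpleGraph V} {n : ℕ} {q l lam : ℝ}

/-- `Σ_y (δ y - 1) = 2 e - v` (all degrees positive). -/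
lemma sum_deg_sub_one (G : SimpleGraph β) (hiso : ∀ x, ∃ y, G.Adj x y) :
    ∑ y, ((nb G y).card - 1) + Fintype.card β = 2 * (eIn G univ).card := by
  classical
  have h1 : ∀ y, (nb G y).card - 1 + 1 = (nb G y).card := by
    intro y
    obtain ⟨u, hu⟩ := hiso y
    have : 0 < (nb G y).card := Finset.card_pos.2 ⟨u, mem_nb.2 hu⟩
    omega
  have h2 : ∑ y, ((nb G y).card - 1) + Fintype.card β = ∑ y, (nb G y).card := by
    rw [← Finset.card_univ, Finset.card_eq_sum_ones, ← Finset.sum_add_distrib]
    exact Finset.sum_congr rfl fun y _ => h1 y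
  rw [h2]
  have h3 := G.sum_degrees_eq_twice_card_edges
  have h4 : ∀ y, G.degree y = (nb G y).card := by
    intro y
    rw [← SimpleGraph.card_neighborFinset_eq_degree]
    congr 1
    ext u
    simp [mem_nb]
  simp only [h4] at h3
  rw [h3]
  congr 2
  ext e
  simp [eIn, SimpleGraph.mem_edgeFinset]

/-- An embedding gives `e lam ≤ v l` (`density_log`, as in `core_budget`), so `(e - v) l ≤ e (l - lam)`, and with `l - lam ≤ l / 100` we get `100 (e - v) ≤ e`. -/
lemma excess_small (hG : GoodDensity n q H) (hs : Std n q l lam) (hg : 100 * (l - lam) ≤ l)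
    {G : SimpleGraph β} {φ : β → V} (hφ : φ ∈ emb G H) :
    100 * ((eIn G univ).card - Fintype.card β) ≤ (eIn G univ).card := by
  set e := (eIn G univ).card with he
  set v := Fintype.card β with hv
  by_cases hev : e ≤ v
  · have : e - v = 0 := by omega
    rw [this]
    omega
  have hvlt : v < e := not_le.1 hev
  have hl0 : 0 < l := by linarith [hs.l1]
  obtain ⟨hinj, hhom⟩ := mem_emb.1 hφ
  have hdens : (e : ℝ) * lam ≤ (v : ℝ) * l := by
    set T : Finset (Sym2 V) := (eIn G univ).image (Sym2.map φ) with hTdef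
    have hTcard : T.card = e := Finset.card_image_of_injective _ (Sym2.map.injective hinj)
    have hTedge : ∀ f ∈ T, f ∈ H.edgeSet := by
      intro f hf
      obtain ⟨f', hf', rfl⟩ := Finset.mem_image.1 hf
      induction f' using Sym2.ind with
      | _ a b =>
        rw [Sym2.map_mk]
        exact hhom a b (mem_eIn_pair.1 hf').1
    have h1 := density_log hG hs T hTedge
    have hvs : (vs T).card ≤ v := by
      have h2 : vs T ⊆ univ.image φ := by
        intro w hw
        obtain ⟨f, hf, hwf⟩ := Finset.mem_biUnion.1 hw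
        obtain ⟨f', _, rfl⟩ := Finset.mem_image.1 hf
        have hw' := Sym2.mem_toFinset.1 hwf
        obtain ⟨a, _, rfl⟩ := Sym2.mem_map.1 hw'
        exact Finset.mem_image_of_mem _ (mem_univ _)
      calc (vs T).card ≤ (univ.image φ).card := Finset.card_le_card h2
        _ ≤ (univ : Finset β).card := Finset.card_image_le
        _ = v := Finset.card_univ
    rw [hTcard] at h1
    refine h1.trans (mul_le_mul_of_nonneg_right ?_ hl0.le)
    exact_mod_cast hvs
  have he0 : (0 : ℝ) ≤ e := Nat.cast_nonneg _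
  have h2 : ((e : ℝ) - v) * l ≤ e * (l - lam) := by nlinarith
  have h3 : 100 * ((e : ℝ) - v) * l ≤ (e : ℝ) * l := by
    have h4 := mul_le_mul_of_nonneg_left hg he0
    nlinarith
  have h5 : 100 * ((e : ℝ) - v) ≤ (e : ℝ) := le_of_mul_le_mul_right h3 hl0
  have h6 : ((100 * (e - v) : ℕ) : ℝ) ≤ (e : ℝ) := by
    push_cast [Nat.cast_sub hvlt.le]
    exact h5
  exact_mod_cast h6

/-- For `φ ∈ typedQ τ ∩ typedL lv`: `τ y = inl 0 ↔ lv y = none`; `τ y = inr i → lv y = some i`; a vertex with `lv y ≠ none` and `τ y` not a hub forces `e ≥ 512`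
(dense: `A₁ ≤ deg ≤ 8 δ`, so `δ ≥ 512`; chord: `512 ≤ inn - δ`, `inn < v`, `v ≤ e + 1`). All from `classOf_spec`, `levelOf_spec`. -/
lemma compat (hG : GoodDensity n q H) {Δ A₁ : ℝ} {s₁ I : ℕ} (hV : Fintype.card V ≤ n)
    (hp : QPar n q l lam Δ A₁ s₁ I) {G : SimpleGraph β} [Nonempty β] (hiso : ∀ x, ∃ y, G.Adj x y)
    (hconn : ∀ D : Finset β, D.Nonempty → D ≠ univ → ∃ u ∈ D, ∃ w, w ∉ D ∧ G.Adj u w)
    {τ : β → Cls I} {lv : β → Option (Fin I)} {φ : β → V}
    (h1 : φ ∈ typedQ G H A₁ I τ) (h2 : φ ∈ typedL G H A₁ I lv) (y : β) :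
    (τ y = Sum.inl 0 ↔ lv y = none) ∧ (∀ i, τ y = Sum.inr i → lv y = some i) ∧
      (∀ i, lv y = some i → τ y = Sum.inr i ∨ 512 ≤ (eIn G univ).card) := by
  classical
  have hφ : φ ∈ emb G H := (Finset.mem_filter.1 h1).1
  have hτ : classOf G H A₁ I φ y = τ y := (Finset.mem_filter.1 h1).2 y
  have hlv : levelOf H A₁ I φ y = lv y := (Finset.mem_filter.1 h2).2 y
  rw [← hτ, ← hlv]
  have hspec := classOf_spec hG hV hp G hφ y
  have hstd := hp.std
  have hq1 : q ≤ 1 := hstd.q1
  -- the degree of `φ y`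
  have hdeg : ((nb H (φ y)).card : ℝ) ≤ Δ := by
    have h := degree_bound hG hstd.q0 hq1 hstd.n1 hV hp.D1 (φ y)
    have hnb : ((univ : Finset V).filter (fun b => H.Adj (φ y) b)) = nb H (φ y) := rfl
    rw [hnb] at h
    have hl := hstd.l_eq
    have hd := hp.Δdeg
    rw [hl] at hd
    linarith
  set a := (nb H (φ y)).card with ha
  set inn := ((nb H (φ y)) ∩ univ.image φ).card with hinn
  set δ := (nb G y).card with hδdef
  by_cases hlow : (a : ℝ) < A₁
  · have hc : classOf G H A₁ I φ y = Sum.inl 0 := by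
      unfold classOf
      rw [if_pos hlow]
    have hL : levelOf H A₁ I φ y = none := by
      unfold levelOf
      rw [if_pos hlow]
    rw [hc, hL]
    simp
  -- a high vertex
  have hA : A₁ ≤ (a : ℝ) := not_lt.1 hlow
  have hA4096 : (4096 : ℝ) ≤ A₁ := by
    have h3 := hp.Alow
    have h4 := hp.D1
    linarith
  have ha4096 : 4096 ≤ a := by
    have : (4096 : ℝ) ≤ (a : ℝ) := hA4096.trans hA
    exact_mod_cast this
  have ha0 : a ≠ 0 := by omega
  have hlog12 : 12 ≤ Nat.log 2 a := by
    have h3 : (2 : ℕ) ^ 12 ≤ a := by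
      have : (2 : ℕ) ^ 12 = 4096 := by norm_num
      omega
    exact Nat.le_log_of_pow_le (by norm_num) h3
  have hpw : 2 ^ Nat.log 2 a ≤ a := Nat.pow_log_le_self 2 ha0
  have hlt : a < 2 ^ (Nat.log 2 a + 1) := Nat.lt_pow_succ_log_self (by norm_num) a
  have hI : Nat.log 2 a < I := by
    by_contra h3
    have h4 : I ≤ Nat.log 2 a := not_lt.1 h3
    have h5 : (2 : ℕ) ^ I ≤ a := le_trans (Nat.pow_le_pow_right (by norm_num) h4) hpw
    have h6 : ((2 : ℝ) ^ I) ≤ (a : ℝ) := by exact_mod_cast h5
    have h7 := hp.ΔI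
    linarith
  have hL : levelOf H A₁ I φ y = some ⟨Nat.log 2 a, hI⟩ := by
    unfold levelOf
    rw [if_neg hlow, dif_pos hI]
  rw [hL]
  by_cases hhub : inn < 2 ^ (Nat.log 2 a - 1)
  · have hc : classOf G H A₁ I φ y = Sum.inr ⟨Nat.log 2 a, hI⟩ := by
      unfold classOf
      rw [if_neg hlow, if_pos hhub, dif_pos hI]
    rw [hc]
    refine ⟨by simp, ?_, ?_⟩
    · intro i hi
      have := Sum.inr_injective hi
      rw [this]
    · intro i hi
      left
      have := Option.some_injective _ hi
      rw [this]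
  -- dense or chord heavy
  have hhub' : 2 ^ (Nat.log 2 a - 1) ≤ inn := not_lt.1 hhub
  have hsplit : 2 ^ (Nat.log 2 a + 1) = 4 * 2 ^ (Nat.log 2 a - 1) := by
    have : Nat.log 2 a + 1 = (Nat.log 2 a - 1) + 2 := by omega
    rw [this, pow_add]; ring
  by_cases hd : inn ≤ 2 * δ
  · have hc : classOf G H A₁ I φ y = Sum.inl 1 := by
      unfold classOf
      rw [if_neg hlow, if_neg hhub, if_pos hd]
    rw [hc]
    refine ⟨by simp, ?_, ?_⟩
    · intro i hi
      exact absurd hi (by simp)
    · intro i _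
      right
      have h8 : a ≤ 8 * δ := by omega
      have h9 : 512 ≤ δ := by omega
      refine h9.trans ?_
      refine Finset.card_le_card_of_injOn (fun u => s(y, u)) ?_ ?_
      · intro u hu
        have hu' : u ∈ nb G y := by simpa using hu
        exact mem_eIn_pair.2 ⟨mem_nb.1 hu', mem_univ _, mem_univ _⟩
      · intro u _ w _ huw
        exact Sym2.congr_right.1 huw
  · have hc : classOf G H A₁ I φ y = Sum.inl 2 := by
      unfold classOf
      rw [if_neg hlow, if_neg hhub, if_neg hd]
    have hchord := hspec.2.2.2 hc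
    rw [hc]
    refine ⟨by simp, ?_, ?_⟩
    · intro i hi
      exact absurd hi (by simp)
    · intro i _
      right
      have hinn512 : 512 ≤ inn := by
        have := hchord.2
        omega
      -- `inn < v`
      obtain ⟨hinj, _⟩ := mem_emb.1 hφ
      have hinnv : inn + 1 ≤ Fintype.card β := by
        have hsub : (nb H (φ y)) ∩ univ.image φ ⊆ (univ.image φ).erase (φ y) := by
          intro w hw
          obtain ⟨hw1, hw2⟩ := Finset.mem_inter.1 hw
          refine Finset.mem_erase.2 ⟨?_, hw2⟩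
          rintro rfl
          exact (H.loopless.irrefl _) (mem_nb.1 hw1)
        have h10 := Finset.card_le_card hsub
        rw [Finset.card_erase_of_mem (Finset.mem_image_of_mem _ (mem_univ _)),
          Finset.card_image_of_injective _ hinj, Finset.card_univ] at h10
        have hpos : 0 < Fintype.card β := Fintype.card_pos
        omega
      obtain ⟨z⟩ : Nonempty β := inferInstance
      obtain ⟨par, r, h3, h4⟩ := exists_par_rank (F := G) (I := univ) (x := z) (mem_univ z)
        (fun D hD _ hne => by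
          obtain ⟨u, hu, w, hw, huw⟩ := hconn D hD hne
          exact ⟨u, hu, w, by simp [hw], huw⟩)
      have hT : RootedT G z par r :=
        ⟨h3, fun v hv => ⟨(h4 v (mem_univ v) hv).2.1, (h4 v (mem_univ v) hv).2.2⟩⟩
      have h11 := v_le_e_add_one hT
      omega

end Vale.Agent.Lib.P064W
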