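import Vale.Agent.Lib.P064W.Side
import Vale.Agent.Lib.P064W.Levels
import Vale.Agent.Lib.P064W.MinNum
import Vale.Agent.Lib.P064W.Combine1

/-!
The two bounds together, for connected graphs (notes/P064W_blueprint.md, part CB).
-/

open Finset

namespace Vale.Agent.Lib.P064W

open Vale.Agent.Lib.P064 Vale.Agent.Lib.P064E Vale.Agent.Lib.P064U Vale.Agent.Lib.P064Q
open scoped Classical

variable {V β : Type} [Fintype V] [Fintype β] {H : SimpleGraph V} {n : ℕ} {q l lam : ℝ}

/-- The walk constant. -/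
private lemma walk_const (v e : ℕ) :
    (spA * 8192) ^ v * Real.exp 3 ^ e ≤ Real.exp (200 * ((v : ℝ) + (e : ℝ))) := by
  have hexp2 : (2 : ℝ) ≤ Real.exp 1 := by
    have := Real.add_one_le_exp (1 : ℝ)
    linarith
  have h19 : (2 : ℝ) ^ 19 ≤ Real.exp 19 := by
    have h : Real.exp 19 = Real.exp 1 ^ 19 := by
      rw [← Real.exp_nat_mul]
      norm_num
    rw [h]
    exact pow_le_pow_left₀ (by norm_num) hexp2 _
  have h1 : spA * 8192 ≤ Real.exp 200 := by
    unfold spA
    calc 64 * Real.exp 2 * 8192 = (2 : ℝ) ^ 19 * Real.exp 2 := by norm_num; ring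
      _ ≤ Real.exp 19 * Real.exp 2 := by gcongr
      _ = Real.exp 21 := by rw [← Real.exp_add]; norm_num
      _ ≤ Real.exp 200 := Real.exp_le_exp.2 (by norm_num)
  have h0 : 0 ≤ spA * 8192 := by
    have := spA_one_le
    linarith
  have h2 : (spA * 8192) ^ v ≤ Real.exp 200 ^ v := pow_le_pow_left₀ h0 h1 _
  have h3 : Real.exp 3 ^ e ≤ Real.exp 200 ^ e :=
    pow_le_pow_left₀ (Real.exp_pos _).le (Real.exp_le_exp.2 (by norm_num)) _
  calc (spA * 8192) ^ v * Real.exp 3 ^ e ≤ Real.exp 200 ^ v * Real.exp 200 ^ e :=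
        mul_le_mul h2 h3 (by positivity) (by positivity)
    _ = Real.exp (200 * ((v : ℝ) + (e : ℝ))) := by
        rw [← Real.exp_nat_mul, ← Real.exp_nat_mul, ← Real.exp_add]
        congr 1
        ring

/-- One level pattern and one type.  Set `w = Σ_{lv y ≠ none} (δ y - 1)`, `u = lowSum G τ + [no hub]`, `Y' = 2 Δ`, `Xm = 2 Δ / A₁`.
`w = 0`: all factors `xOf ^ (δ - 1)` are `1`; `walk_side`.
`w ≥ 1`: `u + w ≤ (26/25) e`: `lowSum + w = 2 e - v` (`sum_deg_sub_one`, `compat`), with a hub `u + w = e + (e - v)`; without a hub some vertex has `lv y ≠ none`, so `e ≥ 512` by `compat`, `u + w = e + (e - v) + 1`; `excess_small`.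
`min_pow_le`: if `A₁^u` is small `side_bound`; if `Xm^w` is small `walk_side` with `xOf ≤ Xm`. -/
theorem level_type_bound (hG : GoodDensity n q H) {Δ A₁ : ℝ} {s₁ I : ℕ} (hn : 2 ≤ n)
    (hV : Fintype.card V ≤ n) (hp : QPar n q l lam Δ A₁ s₁ I) (hA8 : A₁ ≤ 8192 * ((n : ℝ) * q))
    (hqe : q ≤ Real.exp (-1)) (hL4 : 4 ≤ Real.log n)
    (hD2 : (Real.exp 1 * ((n : ℝ) * q)) ^ 2 < n) (hκ : spKap n q ≤ 1) (hg : 100 * (l - lam) ≤ l)
    (G : SimpleGraph β) [Nonempty β] (hiso : ∀ x, ∃ y, G.Adj x y)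
    (hconn : ∀ D : Finset β, D.Nonempty → D ≠ univ → ∃ u ∈ D, ∃ w, w ∉ D ∧ G.Adj u w)
    (τ : β → Cls I) (lv : β → Option (Fin I))
    (hne : (typedQ G H A₁ I τ ∩ typedL G H A₁ I lv).Nonempty) :
    ((typedQ G H A₁ I τ ∩ typedL G H A₁ I lv).card : ℝ) ≤
      Real.exp (200 * ((Fintype.card β : ℝ) + ((eIn G univ).card : ℝ))) *
        Real.exp (13 / 50 * Real.log (2 * Δ) * (eIn G univ).card) *
        ((n : ℝ) ^ Fintype.card β * q ^ (eIn G univ).card) := by
  classical
  obtain ⟨φ, hφ⟩ := hne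
  obtain ⟨hφ1, hφ2⟩ := Finset.mem_inter.1 hφ
  have hφemb : φ ∈ emb G H := (Finset.mem_filter.1 hφ2).1
  have hlev : ∀ y, levelOf H A₁ I φ y = lv y := (Finset.mem_filter.1 hφ2).2
  have hq0 : 0 < q := hp.std.q0
  have hA0 : 0 < A₁ := by
    rw [hp.A₁eq]
    positivity
  have hA1 : (1 : ℝ) ≤ A₁ := by
    rw [hp.A₁eq]
    exact one_le_pow₀ (by norm_num)
  have hΔ1 : 1 ≤ Δ := by
    have h1 := hp.Δdeg
    have h2 : (1 : ℝ) ≤ Real.exp 2 := Real.one_le_exp (by norm_num)
    have h3 := hp.D1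
    have h4 := hp.std.l1
    nlinarith
  set v : ℕ := Fintype.card β with hv
  set e : ℕ := (eIn G univ).card with he
  set P0 : ℝ := (n : ℝ) ^ v * q ^ e with hP0
  have hP00 : 0 ≤ P0 := by positivity
  set Q : ℝ := Real.exp (13 / 50 * Real.log (2 * Δ) * (e : ℝ)) with hQ
  have hQ1 : 1 ≤ Q := by
    apply Real.one_le_exp
    have h1 : 0 ≤ Real.log (2 * Δ) := Real.log_nonneg (by linarith)
    positivity
  set Xm : ℝ := 2 * Δ / A₁ with hXm
  -- the sum of the degrees over the non-low vertices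
  set d : β → ℕ := fun y => (nb G y).card - 1 with hd
  set w : ℕ := ∑ y ∈ univ.filter (fun y => lv y ≠ none), d y with hw
  have hcompat := fun y => compat hG hV hp hiso hconn hφ1 hφ2 y
  -- walk side
  have hwalk := walk_side hG hn hV hp hA8 hqe hL4 hD2 hκ G hiso lv ⟨φ, hφ2⟩
  have hprod : ∏ y, (xOf A₁ (lv y)) ^ ((nb G y).card - 1) ≤ Xm ^ w := by
    have hspec := fun y => levelOf_spec (φ := φ) hG hV hp y
    have hstep : ∀ y, (xOf A₁ (lv y)) ^ ((nb G y).card - 1) ≤
        if lv y ≠ none then Xm ^ d y else 1 := by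
      intro y
      rcases hlvy : lv y with _ | i
      · simp [xOf]
      · have h1 := ((hspec y).2 i (by rw [hlev y, hlvy])).2.2.2
        have hx : xOf A₁ (some i) ≤ Xm := by
          simp only [xOf, hXm]
          apply div_le_div_of_nonneg_right _ hA0.le
          rw [pow_succ]
          linarith
        have hx0 : 0 ≤ xOf A₁ (some i) := by
          simp only [xOf]
          positivity
        simp only [ne_eq, reduceCtorEq, not_false_eq_true, if_true]
        exact pow_le_pow_left₀ hx0 hx _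
    have hnonneg : ∀ y, 0 ≤ (xOf A₁ (lv y)) ^ ((nb G y).card - 1) := by
      intro y
      apply pow_nonneg
      rcases lv y with _ | i
      · simp [xOf]
      · simp only [xOf]
        positivity
    calc ∏ y, (xOf A₁ (lv y)) ^ ((nb G y).card - 1)
        ≤ ∏ y, (if lv y ≠ none then Xm ^ d y else 1) :=
          Finset.prod_le_prod (fun y _ => hnonneg y) (fun y _ => hstep y)
      _ = Xm ^ w := by
          rw [Finset.prod_ite]
          simp only [Finset.prod_const_one, mul_one]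
          rw [Finset.prod_pow_eq_pow_sum]
  have hXm0 : 0 ≤ Xm := by
    rw [hXm]
    positivity
  have hwalkX : ((typedL G H A₁ I lv).card : ℝ) ≤
      Real.exp (200 * ((v : ℝ) + (e : ℝ))) * (Xm ^ w * P0) := by
    have hc := walk_const v e
    have hXw : 0 ≤ Xm ^ w := pow_nonneg hXm0 _
    have hc0 : 0 ≤ (spA * 8192) ^ v * Real.exp 3 ^ e := by
      have := spA_one_le
      positivity
    calc ((typedL G H A₁ I lv).card : ℝ)
        ≤ (spA * 8192) ^ v * Real.exp 3 ^ e * P0 *
            ∏ y, (xOf A₁ (lv y)) ^ ((nb G y).card - 1) := hwalk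
      _ ≤ (spA * 8192) ^ v * Real.exp 3 ^ e * P0 * Xm ^ w :=
          mul_le_mul_of_nonneg_left hprod (mul_nonneg hc0 hP00)
      _ = ((spA * 8192) ^ v * Real.exp 3 ^ e) * (Xm ^ w * P0) := by ring
      _ ≤ _ := mul_le_mul_of_nonneg_right hc (mul_nonneg hXw hP00)
  have hcardL : ((typedQ G H A₁ I τ ∩ typedL G H A₁ I lv).card : ℝ) ≤
      ((typedL G H A₁ I lv).card : ℝ) := by
    exact_mod_cast Finset.card_le_card Finset.inter_subset_right
  have hcardQ : ((typedQ G H A₁ I τ ∩ typedL G H A₁ I lv).card : ℝ) ≤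
      ((typedQ G H A₁ I τ).card : ℝ) := by
    exact_mod_cast Finset.card_le_card Finset.inter_subset_left
  have hE0 : 0 ≤ Real.exp (200 * ((v : ℝ) + (e : ℝ))) := (Real.exp_pos _).le
  by_cases hw0 : w = 0
  · -- all excess factors are trivial
    have h1 := hcardL.trans hwalkX
    rw [hw0, pow_zero, one_mul] at h1
    refine h1.trans ?_
    calc Real.exp (200 * ((v : ℝ) + (e : ℝ))) * P0
        = Real.exp (200 * ((v : ℝ) + (e : ℝ))) * 1 * P0 := by ring
      _ ≤ Real.exp (200 * ((v : ℝ) + (e : ℝ))) * Q * P0 := by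
          gcongr
  · -- a non-low vertex
    obtain ⟨y₀, hy₀, hdy₀⟩ : ∃ y₀ ∈ univ.filter (fun y => lv y ≠ none), d y₀ ≠ 0 := by
      by_contra hcon
      push Not at hcon
      exact hw0 (Finset.sum_eq_zero hcon)
    have hy₀' : lv y₀ ≠ none := (Finset.mem_filter.1 hy₀).2
    obtain ⟨i₀, hi₀⟩ := Option.ne_none_iff_exists'.1 hy₀'
    have hspec₀ := (levelOf_spec (φ := φ) hG hV hp y₀).2 i₀ (by rw [hlev y₀, hi₀])
    have hXm1 : 1 ≤ Xm := by
      rw [hXm, le_div_iff₀ hA0]
      have h1 : A₁ ≤ (2 : ℝ) ^ (i₀ : ℕ) := by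
        rw [hp.A₁eq]
        exact pow_le_pow_right₀ (by norm_num) hspec₀.1
      linarith [hspec₀.2.2.2]
    have hAX : A₁ * Xm = 2 * Δ := by
      rw [hXm]
      field_simp
    -- the sum of all excess degrees
    have hlow : lowSum G τ = ∑ y ∈ univ.filter (fun y => ¬ lv y ≠ none), d y := by
      unfold lowSum
      refine Finset.sum_congr ?_ fun _ _ => rfl
      ext y
      simp only [Finset.mem_filter, Finset.mem_univ, true_and, not_not]
      exact (hcompat y).1
    have hsum : lowSum G τ + w = ∑ y, d y := by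
      rw [hlow, add_comm, hw]
      exact Finset.sum_filter_add_sum_filter_not univ _ _
    have hdeg := sum_deg_sub_one G hiso
    have hexc := excess_small hG hp.std hg hφemb
    set u : ℕ := lowSum G τ + if hasHub τ then 0 else 1 with hu
    have huw : 25 * (u + w) ≤ 26 * e := by
      have hdeg' : ∑ y, d y + v = 2 * e := hdeg
      by_cases hhub : hasHub τ
      · have hu' : u = lowSum G τ := by
          rw [hu, if_pos hhub, add_zero]
        rw [hu']
        omega
      · have hu' : u = lowSum G τ + 1 := by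
          rw [hu, if_neg hhub]
        have h512 : 512 ≤ e := by
          rcases (hcompat y₀).2.2 i₀ hi₀ with h | h
          · exact absurd ⟨y₀, i₀, h⟩ hhub
          · exact h
        rw [hu']
        omega
    rcases min_pow_le hA1 hXm1 hAX huw with h | h
    · have hside := side_bound hG hV hp G hiso hconn τ ⟨φ, hφ1⟩
      refine hcardQ.trans (hside.trans ?_)
      have h100 : Real.exp (100 * ((v : ℝ) + (e : ℝ))) ≤ Real.exp (200 * ((v : ℝ) + (e : ℝ))) := by
        apply Real.exp_le_exp.2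
        have h1 : (0 : ℝ) ≤ (v : ℝ) + (e : ℝ) := by positivity
        linarith
      have h3 : Real.exp (100 * ((v : ℝ) + (e : ℝ))) * A₁ ^ u * P0
          ≤ Real.exp (200 * ((v : ℝ) + (e : ℝ))) * Q * P0 := by
        gcongr
      exact h3
    · refine hcardL.trans (hwalkX.trans ?_)
      calc Real.exp (200 * ((v : ℝ) + (e : ℝ))) * (Xm ^ w * P0)
          ≤ Real.exp (200 * ((v : ℝ) + (e : ℝ))) * (Q * P0) := by
            gcongr
        _ = _ := by ring

/-- A level pattern: the types meeting `typedL lv` number at most `3 ^ v` (a type is determined by `lv` and the code `inl 0, inr _ ↦ 0, inl 1 ↦ 1, inl 2 ↦ 2`, by `compat`).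
All patterns: `Option (Fin I)` has `I + 1` elements. -/
theorem conn_boundW (hG : GoodDensity n q H) {Δ A₁ : ℝ} {s₁ I : ℕ} (hn : 2 ≤ n)
    (hV : Fintype.card V ≤ n) (hp : QPar n q l lam Δ A₁ s₁ I) (hA8 : A₁ ≤ 8192 * ((n : ℝ) * q))
    (hqe : q ≤ Real.exp (-1)) (hL4 : 4 ≤ Real.log n)
    (hD2 : (Real.exp 1 * ((n : ℝ) * q)) ^ 2 < n) (hκ : spKap n q ≤ 1) (hg : 100 * (l - lam) ≤ l)
    (G : SimpleGraph β) [Nonempty β] (hiso : ∀ x, ∃ y, G.Adj x y)
    (hconn : ∀ D : Finset β, D.Nonempty → D ≠ univ → ∃ u ∈ D, ∃ w, w ∉ D ∧ G.Adj u w) :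
    ((emb G H).card : ℝ) ≤
      ((I : ℝ) + 1) ^ Fintype.card β * (3 : ℝ) ^ Fintype.card β *
        Real.exp (200 * ((Fintype.card β : ℝ) + ((eIn G univ).card : ℝ))) *
        Real.exp (13 / 50 * Real.log (2 * Δ) * (eIn G univ).card) *
        ((n : ℝ) ^ Fintype.card β * q ^ (eIn G univ).card) := by
  have hnq : 0 < (n : ℝ) := by exact_mod_cast (by omega : 0 < n)
  have hq0 : 0 ≤ q := by
    have h1 := hp.D1
    by_contra hcon
    have h2 : q < 0 := not_le.1 hcon
    nlinarith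
  set v := Fintype.card β with hv
  set B : ℝ := Real.exp (200 * ((v : ℝ) + ((eIn G univ).card : ℝ))) *
    Real.exp (13 / 50 * Real.log (2 * Δ) * (eIn G univ).card) *
    ((n : ℝ) ^ v * q ^ (eIn G univ).card) with hB
  have hB0 : 0 ≤ B := by positivity
  -- the code of a class
  let code : Cls I → Fin 3 := Sum.elim (fun k => k) (fun _ => 0)
  let decode : Option (Fin I) → Fin 3 → Cls I := fun o k =>
    if k = 0 then (match o with
      | none => Sum.inl 0
      | some i => Sum.inr i) else Sum.inl k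
  have hdecode : ∀ (c : Cls I) (o : Option (Fin I)), (c = Sum.inl 0 ↔ o = none) →
      (∀ i, c = Sum.inr i → o = some i) → c = decode o (code c) := by
    intro c o h1 h2
    rcases c with k | i
    · by_cases hk : k = 0
      · subst hk
        have : o = none := h1.1 rfl
        subst this
        simp [decode, code]
      · simp [decode, code, hk]
    · have : o = some i := h2 i rfl
      subst this
      simp [decode, code]
  let T : (β → Option (Fin I)) → Finset (β → Cls I) := fun lv =>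
    (univ : Finset (β → Cls I)).filter
      fun τ => (typedQ G H A₁ I τ ∩ typedL G H A₁ I lv).Nonempty
  have hT : ∀ lv, ((T lv).card : ℝ) ≤ (3 : ℝ) ^ v := by
    intro lv
    have h1 : (T lv).card ≤ (univ : Finset (β → Fin 3)).card := by
      refine Finset.card_le_card_of_injOn (fun τ y => code (τ y)) (fun _ _ => mem_univ _) ?_
      intro τ hτ τ' hτ' heq
      obtain ⟨φ, hφ⟩ := (Finset.mem_filter.1 hτ).2
      obtain ⟨φ', hφ'⟩ := (Finset.mem_filter.1 hτ').2
      obtain ⟨h1, h2⟩ := Finset.mem_inter.1 hφ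
      obtain ⟨h1', h2'⟩ := Finset.mem_inter.1 hφ'
      funext y
      obtain ⟨c1, c2, _⟩ := compat hG hV hp hiso hconn h1 h2 y
      obtain ⟨c1', c2', _⟩ := compat hG hV hp hiso hconn h1' h2' y
      rw [hdecode (τ y) (lv y) c1 c2, hdecode (τ' y) (lv y) c1' c2']
      have : code (τ y) = code (τ' y) := congrFun heq y
      rw [this]
    have h2 : (univ : Finset (β → Fin 3)).card = 3 ^ v := by
      simp [hv]
    rw [h2] at h1
    exact_mod_cast h1
  have hone : ∀ lv, ∀ τ ∈ T lv, ((typedQ G H A₁ I τ ∩ typedL G H A₁ I lv).card : ℝ) ≤ B := by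
    intro lv τ hτ
    exact level_type_bound hG hn hV hp hA8 hqe hL4 hD2 hκ hg G hiso hconn τ lv
      (Finset.mem_filter.1 hτ).2
  have hsub : emb G H ⊆ (univ : Finset (β → Option (Fin I))).biUnion fun lv =>
      (T lv).biUnion fun τ => typedQ G H A₁ I τ ∩ typedL G H A₁ I lv := by
    intro φ hφ
    have hm : φ ∈ typedQ G H A₁ I (classOf G H A₁ I φ) ∩ typedL G H A₁ I (levelOf H A₁ I φ) := by
      refine Finset.mem_inter.2 ⟨?_, ?_⟩
      · exact Finset.mem_filter.2 ⟨hφ, fun _ => rfl⟩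
      · exact Finset.mem_filter.2 ⟨hφ, fun _ => rfl⟩
    refine Finset.mem_biUnion.2 ⟨levelOf H A₁ I φ, mem_univ _, ?_⟩
    exact Finset.mem_biUnion.2 ⟨classOf G H A₁ I φ,
      Finset.mem_filter.2 ⟨mem_univ _, ⟨φ, hm⟩⟩, hm⟩
  have hlv : ∀ lv, (((T lv).biUnion fun τ => typedQ G H A₁ I τ ∩ typedL G H A₁ I lv).card : ℝ) ≤
      (3 : ℝ) ^ v * B := by
    intro lv
    have h1 : (((T lv).biUnion fun τ => typedQ G H A₁ I τ ∩ typedL G H A₁ I lv).card : ℝ) ≤
        ∑ τ ∈ T lv, ((typedQ G H A₁ I τ ∩ typedL G H A₁ I lv).card : ℝ) := by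
      exact_mod_cast Finset.card_biUnion_le
    have h2 : ∑ τ ∈ T lv, ((typedQ G H A₁ I τ ∩ typedL G H A₁ I lv).card : ℝ) ≤
        ∑ _τ ∈ T lv, B := Finset.sum_le_sum (hone lv)
    have h3 : ∑ _τ ∈ T lv, B = ((T lv).card : ℝ) * B := by
      simp
    calc _ ≤ _ := h1
      _ ≤ _ := h2
      _ = _ := h3
      _ ≤ _ := mul_le_mul_of_nonneg_right (hT lv) hB0
  have hcard : ((emb G H).card : ℝ) ≤ ((I : ℝ) + 1) ^ v * ((3 : ℝ) ^ v * B) := by
    have h1 : (emb G H).card ≤ ((univ : Finset (β → Option (Fin I))).biUnion fun lv =>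
      (T lv).biUnion fun τ => typedQ G H A₁ I τ ∩ typedL G H A₁ I lv).card :=
      Finset.card_le_card hsub
    have h2 : (((univ : Finset (β → Option (Fin I))).biUnion fun lv =>
      (T lv).biUnion fun τ => typedQ G H A₁ I τ ∩ typedL G H A₁ I lv).card : ℝ) ≤
        ∑ lv : β → Option (Fin I),
          (((T lv).biUnion fun τ => typedQ G H A₁ I τ ∩ typedL G H A₁ I lv).card : ℝ) := by
      exact_mod_cast Finset.card_biUnion_le
    have h3 : ∑ lv : β → Option (Fin I),
          (((T lv).biUnion fun τ => typedQ G H A₁ I τ ∩ typedL G H A₁ I lv).card : ℝ) ≤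
        ∑ _lv : β → Option (Fin I), ((3 : ℝ) ^ v * B) :=
      Finset.sum_le_sum fun lv _ => hlv lv
    have h4 : ∑ _lv : β → Option (Fin I), ((3 : ℝ) ^ v * B) = ((I : ℝ) + 1) ^ v * ((3 : ℝ) ^ v * B) := by
      simp [Finset.card_univ, hv]
    calc ((emb G H).card : ℝ) ≤ _ := by exact_mod_cast h1
      _ ≤ _ := h2
      _ ≤ _ := h3
      _ = _ := h4
  calc ((emb G H).card : ℝ) ≤ ((I : ℝ) + 1) ^ v * ((3 : ℝ) ^ v * B) := hcard
    _ = _ := by rw [hB]; ring

end Vale.Agent.Lib.P064W
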