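import Vale.Agent.Lib.P064Q.Conn

/-!
The anchor side: the bound for one type keeps only the degree bounds of the low vertices (notes/P064W_blueprint.md, part SI).
-/

open Finset

namespace Vale.Agent.Lib.P064W

open Vale.Agent.Lib.P064 Vale.Agent.Lib.P064E Vale.Agent.Lib.P064U Vale.Agent.Lib.P064Q
open scoped Classical

variable {V β : Type} [Fintype V] [Fintype β] {H : SimpleGraph V} {n : ℕ} {q l lam : ℝ}

/-- The sum of `deg - 1` over the low vertices of a type. -/
noncomputable def lowSum {I : ℕ} (G : SimpleGraph β) (τ : β → Cls I) : ℕ :=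
  ∑ y ∈ univ.filter (fun y => τ y = Sum.inl 0), ((nb G y).card - 1)

/-- The type has a hub. -/
def hasHub {I : ℕ} (τ : β → Cls I) : Prop := ∃ y i, τ y = Sum.inr i

/-- A vertex other than the root has a parent, which is not one of its children. -/
lemma ct_add_one_le {G : SimpleGraph β} {z : β} {par : β → β} {r : β → ℕ} (hT : RootedT G z par r)
    {y : β} (hy : y ≠ z) : ct z par y + 1 ≤ (nb G y).card := by
  have hpary : par y ∉ univ.filter fun u => u ≠ z ∧ par u = y := by
    intro h
    obtain ⟨-, h1, h2⟩ := Finset.mem_filter.1 h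
    have h3 := (hT.hpar y hy).1
    have h4 := (hT.hpar (par y) h1).1
    rw [h2] at h4
    omega
  unfold ct
  rw [← Finset.card_insert_of_notMem hpary]
  apply Finset.card_le_card
  intro u hu
  rcases Finset.mem_insert.1 hu with rfl | hu
  · exact mem_nb.2 (hT.hpar y hy).2.symm
  · obtain ⟨-, hu1, hu2⟩ := Finset.mem_filter.1 hu
    have h := (hT.hpar u hu1).2
    rw [hu2] at h
    exact mem_nb.2 h

lemma ct_root_le {G : SimpleGraph β} {z : β} {par : β → β} {r : β → ℕ} (hT : RootedT G z par r) :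
    ct z par z ≤ (nb G z).card := by
  unfold ct
  apply Finset.card_le_card
  intro u hu
  obtain ⟨-, hu1, hu2⟩ := Finset.mem_filter.1 hu
  have h := (hT.hpar u hu1).2
  rw [hu2] at h
  exact mem_nb.2 h

/-- The product of the weights.  Low: `A₁^ct` and `ct ≤ δ - 1`, except `ct z ≤ δ z`. Dense: `x^k / k! ≤ exp x`, `(8 δ)^(min cS 3) ≤ exp (24 δ)`.  Chord: `1`.
Hub of level `i` (`s₁ ≤ i` by `classOf_spec`): `hub_weight_le`, `(1/2)^i ≤ 1 / A₁`, `1 ≤ (16 e)^cF`.  At least one hub: the factor `1 / A₁` pays the root.  `Σ δ = 2 e`, `Σ ct ≤ e`. -/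
theorem prod_WQ_le (hG : GoodDensity n q H) {Δ A₁ : ℝ} {s₁ I : ℕ} (hV : Fintype.card V ≤ n)
    (hp : QPar n q l lam Δ A₁ s₁ I) {G : SimpleGraph β} [Nonempty β] (hiso : ∀ x, ∃ y, G.Adj x y)
    {τ : β → Cls I} {φ : β → V}
    (hφ : φ ∈ typedQ G H A₁ I τ) {z : β} {par : β → β} {r : β → ℕ} (hT : RootedT G z par r) :
    ∏ y, WQ A₁ ((n : ℝ) * q) s₁ (nb G y).card (cf G z par y) (cs G z par y) (τ y) ≤
      (16 * Real.exp 1) ^ (eIn G univ).card * Real.exp (64 * ((eIn G univ).card : ℝ)) *
        A₁ ^ (lowSum G τ + if hasHub τ then 0 else 1) := by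
  classical
  have hφ' : φ ∈ emb G H := (Finset.mem_filter.1 hφ).1
  have hτ : ∀ y, classOf G H A₁ I φ y = τ y := (Finset.mem_filter.1 hφ).2
  have hq0 : 0 < q := hp.std.q0
  have hD0 : (0 : ℝ) ≤ (n : ℝ) * q := by positivity
  have hA1 : (1 : ℝ) ≤ A₁ := by
    rw [hp.A₁eq]; exact one_le_pow₀ (by norm_num)
  have hA0 : (0 : ℝ) < A₁ := by linarith
  have hexp1 : (1 : ℝ) ≤ Real.exp 1 := Real.one_le_exp (by norm_num)
  have hE16 : (1 : ℝ) ≤ 16 * Real.exp 1 := by linarith
  set E16 : ℝ := 16 * Real.exp 1 with hE16def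
  set e : ℕ := (eIn G univ).card with he
  set h4 : β → ℝ := fun y => if (∃ i, τ y = Sum.inr i) then A₁⁻¹ else 1 with hh4
  set h5 : β → ℝ := fun y => if y = z ∧ τ y = Sum.inl 0 then A₁ else 1 with hh5
  have hh40 : ∀ y, 0 ≤ h4 y := by
    intro y; simp only [hh4]; split_ifs <;> positivity
  have hh50 : ∀ y, 0 ≤ h5 y := by
    intro y; simp only [hh5]; split_ifs <;> positivity
  set t : β → ℝ := fun y => E16 ^ ct z par y * Real.exp (32 * ((nb G y).card : ℝ)) *
    A₁ ^ (if τ y = Sum.inl 0 then (nb G y).card - 1 else 0) * h4 y * h5 y with ht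
  have hδ0 : ∀ y, (0 : ℝ) ≤ ((nb G y).card : ℝ) := fun y => Nat.cast_nonneg _
  have hexp32 : ∀ y, (1 : ℝ) ≤ Real.exp (32 * ((nb G y).card : ℝ)) := fun y =>
    Real.one_le_exp (by have := hδ0 y; positivity)
  have hct1 : ∀ y, (1 : ℝ) ≤ E16 ^ ct z par y := fun y => one_le_pow₀ hE16
  -- the weights are nonnegative
  have hWQ0 : ∀ y, 0 ≤ WQ A₁ ((n : ℝ) * q) s₁ (nb G y).card (cf G z par y) (cs G z par y) (τ y) := by
    intro y
    rcases τ y with k | i
    · simp only [WQ, Sum.elim_inl]
      split_ifs <;> positivity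
    · simp only [WQ, Sum.elim_inr]
      split_ifs <;> positivity
  -- the bound at one vertex
  have hvertex : ∀ y, WQ A₁ ((n : ℝ) * q) s₁ (nb G y).card (cf G z par y) (cs G z par y) (τ y) ≤ t y := by
    intro y
    have hctsplit := ct_eq G z par y
    rcases hτy : τ y with k | i
    · have hfin : k = 0 ∨ k = 1 ∨ k = 2 := by
        fin_cases k <;> simp
      rcases hfin with rfl | rfl | rfl
      · -- low
        have hW : WQ A₁ ((n : ℝ) * q) s₁ (nb G y).card (cf G z par y) (cs G z par y) (Sum.inl 0 : Cls I) =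
            A₁ ^ ct z par y := by
          simp only [WQ, Sum.elim_inl, if_true]
          rw [hctsplit]
        rw [hW]
        have h4y : h4 y = 1 := by
          simp only [hh4, hτy]
          rw [if_neg]
          rintro ⟨i, hi⟩
          cases hi
        simp only [ht, hτy, if_true, h4y, mul_one]
        have hmain : A₁ ^ ct z par y ≤ A₁ ^ ((nb G y).card - 1) * h5 y := by
          by_cases hyz : y = z
          · subst hyz
            have h5y : h5 y = A₁ := by
              simp only [hh5, hτy, true_and]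
              rw [if_pos trivial]
            rw [h5y, ← pow_succ]
            apply pow_le_pow_right₀ hA1
            have := ct_root_le hT
            omega
          · have h5y : h5 y = 1 := by
              simp only [hh5]
              rw [if_neg]
              rintro ⟨h, -⟩
              exact hyz h
            rw [h5y, mul_one]
            apply pow_le_pow_right₀ hA1
            have := ct_add_one_le hT hyz
            omega
        have hprod1 : (1 : ℝ) ≤ E16 ^ ct z par y * Real.exp (32 * ((nb G y).card : ℝ)) :=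
          one_le_mul_of_one_le_of_one_le (hct1 y) (hexp32 y)
        have hpos : 0 ≤ A₁ ^ ((nb G y).card - 1) * h5 y := mul_nonneg (by positivity) (hh50 y)
        calc A₁ ^ ct z par y ≤ A₁ ^ ((nb G y).card - 1) * h5 y := hmain
          _ ≤ (E16 ^ ct z par y * Real.exp (32 * ((nb G y).card : ℝ))) *
                (A₁ ^ ((nb G y).card - 1) * h5 y) := le_mul_of_one_le_left hpos hprod1
          _ = _ := by ring
      · -- dense
        have h4y : h4 y = 1 := by
          simp only [hh4, hτy]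
          rw [if_neg]
          rintro ⟨i, hi⟩
          cases hi
        have h5y : h5 y = 1 := by
          simp only [hh5, hτy]
          rw [if_neg]
          rintro ⟨-, hi⟩
          cases hi
        have hne : (Sum.inl 1 : Cls I) ≠ Sum.inl 0 := by
          intro h
          cases h
        have hW : WQ A₁ ((n : ℝ) * q) s₁ (nb G y).card (cf G z par y) (cs G z par y) (Sum.inl 1 : Cls I) =
            (8 * ((nb G y).card : ℝ)) ^ cf G z par y / ((cf G z par y).factorial : ℝ) *
              (8 * ((nb G y).card : ℝ)) ^ (min (cs G z par y) 3) := by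
          simp only [WQ, Sum.elim_inl]
          rw [if_neg (by decide), if_pos trivial]
        rw [hW]
        simp only [ht, hτy, h4y, h5y, mul_one]
        rw [if_neg hne, pow_zero, mul_one]
        set x : ℝ := 8 * ((nb G y).card : ℝ) with hx
        have hx0 : 0 ≤ x := by have := hδ0 y; positivity
        have h1 : x ^ cf G z par y / ((cf G z par y).factorial : ℝ) ≤ Real.exp x :=
          Real.pow_div_factorial_le_exp x hx0 _
        have hxexp : x ≤ Real.exp x := by
          have := Real.add_one_le_exp x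
          linarith
        have h2 : x ^ (min (cs G z par y) 3) ≤ Real.exp (24 * ((nb G y).card : ℝ)) := by
          have hexpx1 : 1 ≤ Real.exp x := Real.one_le_exp hx0
          calc x ^ (min (cs G z par y) 3) ≤ (Real.exp x) ^ (min (cs G z par y) 3) :=
                pow_le_pow_left₀ hx0 hxexp _
            _ ≤ (Real.exp x) ^ 3 := pow_le_pow_right₀ hexpx1 (min_le_right _ _)
            _ = Real.exp (24 * ((nb G y).card : ℝ)) := by
                rw [← Real.exp_nat_mul]
                congr 1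
                rw [hx]
                push_cast
                ring
        have h3 : Real.exp (32 * ((nb G y).card : ℝ)) =
            Real.exp x * Real.exp (24 * ((nb G y).card : ℝ)) := by
          rw [← Real.exp_add, hx]
          congr 1
          ring
        have hexp0 : 0 ≤ Real.exp x := (Real.exp_pos _).le
        calc x ^ cf G z par y / ((cf G z par y).factorial : ℝ) * x ^ (min (cs G z par y) 3)
            ≤ Real.exp x * Real.exp (24 * ((nb G y).card : ℝ)) :=
              mul_le_mul h1 h2 (by positivity) hexp0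
          _ = Real.exp (32 * ((nb G y).card : ℝ)) := h3.symm
          _ ≤ E16 ^ ct z par y * Real.exp (32 * ((nb G y).card : ℝ)) :=
              le_mul_of_one_le_left (Real.exp_pos _).le (hct1 y)
      · -- chord
        have h4y : h4 y = 1 := by
          simp only [hh4, hτy]
          rw [if_neg]
          rintro ⟨i, hi⟩
          cases hi
        have h5y : h5 y = 1 := by
          simp only [hh5, hτy]
          rw [if_neg]
          rintro ⟨-, hi⟩
          cases hi
        have hne : (Sum.inl 2 : Cls I) ≠ Sum.inl 0 := by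
          intro h
          cases h
        have hW : WQ A₁ ((n : ℝ) * q) s₁ (nb G y).card (cf G z par y) (cs G z par y) (Sum.inl 2 : Cls I) = 1 := by
          simp only [WQ, Sum.elim_inl]
          rw [if_neg (by decide), if_neg (by decide)]
        rw [hW]
        simp only [ht, hτy, h4y, h5y, mul_one]
        rw [if_neg hne, pow_zero, mul_one]
        exact one_le_mul_of_one_le_of_one_le (hct1 y) (hexp32 y)
    · -- hub
      have hspec := classOf_spec hG hV hp G hφ' y
      rw [hτ y, hτy] at hspec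
      obtain ⟨hsi, -, -, -⟩ := hspec.2.2.1 i rfl
      have h4y : h4 y = A₁⁻¹ := by
        simp only [hh4, hτy]
        rw [if_pos ⟨i, rfl⟩]
      have h5y : h5 y = 1 := by
        simp only [hh5, hτy]
        rw [if_neg]
        rintro ⟨-, hi⟩
        cases hi
      have hne : (Sum.inr i : Cls I) ≠ Sum.inl 0 := by
        intro h
        cases h
      have hW : WQ A₁ ((n : ℝ) * q) s₁ (nb G y).card (cf G z par y) (cs G z par y) (Sum.inr i : Cls I) ≤
          E16 ^ cf G z par y * (1 / 2) ^ (i : ℕ) := by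
        simp only [WQ, Sum.elim_inr]
        rw [if_pos hsi]
        exact hub_weight_le hp.s12 hp.A₁eq hD0 hp.Alow hsi
      refine hW.trans ?_
      simp only [ht, hτy, h4y, h5y, mul_one]
      rw [if_neg hne, pow_zero, mul_one]
      have h2i : ((1 : ℝ) / 2) ^ (i : ℕ) ≤ A₁⁻¹ := by
        rw [hp.A₁eq, one_div, inv_pow]
        apply inv_anti₀ (by positivity)
        exact pow_le_pow_right₀ (by norm_num) hsi
      have hcfct : E16 ^ cf G z par y ≤ E16 ^ ct z par y :=
        pow_le_pow_right₀ hE16 (by omega)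
      calc E16 ^ cf G z par y * (1 / 2) ^ (i : ℕ) ≤ E16 ^ ct z par y * A₁⁻¹ :=
            mul_le_mul hcfct h2i (by positivity) (by positivity)
        _ = E16 ^ ct z par y * 1 * A₁⁻¹ := by ring
        _ ≤ E16 ^ ct z par y * Real.exp (32 * ((nb G y).card : ℝ)) * A₁⁻¹ := by
            apply mul_le_mul_of_nonneg_right _ (by positivity)
            exact mul_le_mul_of_nonneg_left (hexp32 y) (by positivity)
  have hprod1 : ∏ y, WQ A₁ ((n : ℝ) * q) s₁ (nb G y).card (cf G z par y) (cs G z par y) (τ y) ≤ ∏ y, t y :=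
    Finset.prod_le_prod (fun y _ => hWQ0 y) (fun y _ => hvertex y)
  refine hprod1.trans ?_
  -- the product of the bounds
  have hsplit : ∏ y, t y = (E16 ^ (∑ y, ct z par y)) * Real.exp (∑ y, (32 * ((nb G y).card : ℝ))) *
      A₁ ^ lowSum G τ * (∏ y, h4 y) * (∏ y, h5 y) := by
    simp only [ht, Finset.prod_mul_distrib, Finset.prod_pow_eq_pow_sum]
    rw [Real.exp_sum, lowSum, Finset.sum_filter]
  rw [hsplit]
  have hsumct : ∑ y, ct z par y ≤ e := by
    have h1 := Vale.Agent.Lib.P064Q.sum_ct hT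
    have h2 := v_le_e_add_one hT
    omega
  have h1 : E16 ^ (∑ y, ct z par y) ≤ E16 ^ e := pow_le_pow_right₀ hE16 hsumct
  have hsumdeg : ∑ y, (32 * ((nb G y).card : ℝ)) ≤ 64 * (e : ℝ) := by
    rw [← Finset.mul_sum]
    have h7 : ∑ y, ((nb G y).card : ℝ) ≤ 2 * (e : ℝ) := by
      have h9 := sum_nbIn_self_le (F := G) (univ : Finset β)
      have h10 : ∀ y, nbIn G univ y = (nb G y).card := fun y => by
        simp [nbIn, nb]
      simp only [h10] at h9
      exact_mod_cast h9
    linarith
  have h2 : Real.exp (∑ y, (32 * ((nb G y).card : ℝ))) ≤ Real.exp (64 * (e : ℝ)) :=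
    Real.exp_le_exp.2 hsumdeg
  -- the root factor
  have hP5 : ∏ y, h5 y ≤ A₁ := by
    have hprod : ∏ y, h5 y = h5 z := by
      refine Finset.prod_eq_single z (fun y _ hy => ?_) (fun h => absurd (mem_univ z) h)
      simp only [hh5]
      rw [if_neg]
      rintro ⟨h, -⟩
      exact hy h
    rw [hprod]
    simp only [hh5]
    split_ifs
    · exact le_refl _
    · exact hA1
  have hh41 : ∀ y, h4 y ≤ 1 := by
    intro y
    simp only [hh4]
    split_ifs
    · exact inv_le_one_of_one_le₀ hA1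
    · exact le_refl _
  have hP40 : 0 ≤ ∏ y, h4 y := Finset.prod_nonneg fun y _ => hh40 y
  have hP50 : 0 ≤ ∏ y, h5 y := Finset.prod_nonneg fun y _ => hh50 y
  have hP45 : (∏ y, h4 y) * (∏ y, h5 y) ≤ A₁ ^ (if hasHub τ then 0 else 1) := by
    by_cases hhub : hasHub τ
    · rw [if_pos hhub, pow_zero]
      obtain ⟨y₀, i₀, hy₀⟩ := hhub
      have hP4 : ∏ y, h4 y ≤ A₁⁻¹ := by
        rw [← Finset.mul_prod_erase univ h4 (mem_univ y₀)]
        have hy4 : h4 y₀ = A₁⁻¹ := by
          simp only [hh4]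
          rw [if_pos ⟨i₀, hy₀⟩]
        rw [hy4]
        have hle : ∏ y ∈ univ.erase y₀, h4 y ≤ 1 :=
          Finset.prod_le_one (fun y _ => hh40 y) (fun y _ => hh41 y)
        calc A₁⁻¹ * ∏ y ∈ univ.erase y₀, h4 y ≤ A₁⁻¹ * 1 :=
              mul_le_mul_of_nonneg_left hle (by positivity)
          _ = A₁⁻¹ := mul_one _
      calc (∏ y, h4 y) * (∏ y, h5 y) ≤ A₁⁻¹ * A₁ :=
            mul_le_mul hP4 hP5 hP50 (by positivity)
        _ = 1 := inv_mul_cancel₀ hA0.ne'
    · rw [if_neg hhub, pow_one]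
      have hP41 : ∏ y, h4 y ≤ 1 :=
        Finset.prod_le_one (fun y _ => hh40 y) (fun y _ => hh41 y)
      calc (∏ y, h4 y) * (∏ y, h5 y) ≤ 1 * A₁ := mul_le_mul hP41 hP5 hP50 (by norm_num)
        _ = A₁ := one_mul _
  have hpow0 : 0 ≤ A₁ ^ lowSum G τ := by positivity
  have hE0 : 0 ≤ E16 ^ e := by positivity
  have hex0 : 0 ≤ Real.exp (64 * (e : ℝ)) := (Real.exp_pos _).le
  calc E16 ^ (∑ y, ct z par y) * Real.exp (∑ y, (32 * ((nb G y).card : ℝ))) * A₁ ^ lowSum G τ *
        (∏ y, h4 y) * (∏ y, h5 y)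
      = (E16 ^ (∑ y, ct z par y) * Real.exp (∑ y, (32 * ((nb G y).card : ℝ)))) * A₁ ^ lowSum G τ *
        ((∏ y, h4 y) * (∏ y, h5 y)) := by ring
    _ ≤ (E16 ^ e * Real.exp (64 * (e : ℝ))) * A₁ ^ lowSum G τ * A₁ ^ (if hasHub τ then 0 else 1) := by
        apply mul_le_mul _ hP45 (mul_nonneg hP40 hP50) (by positivity)
        apply mul_le_mul_of_nonneg_right _ hpow0
        exact mul_le_mul h1 h2 (Real.exp_pos _).le hE0
    _ = E16 ^ e * Real.exp (64 * (e : ℝ)) * A₁ ^ (lowSum G τ + if hasHub τ then 0 else 1) := by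
        rw [pow_add]; ring

/-- One nonempty type: `type_bound`, `BBQ_le`, `prod_WQ_le`; trees by `exists_par_rank` as in `conn_boundQ`. -/
theorem side_bound (hG : GoodDensity n q H) {Δ A₁ : ℝ} {s₁ I : ℕ} (hV : Fintype.card V ≤ n)
    (hp : QPar n q l lam Δ A₁ s₁ I) (G : SimpleGraph β) [Nonempty β] (hiso : ∀ x, ∃ y, G.Adj x y)
    (hconn : ∀ D : Finset β, D.Nonempty → D ≠ univ → ∃ u ∈ D, ∃ w, w ∉ D ∧ G.Adj u w)
    (τ : β → Cls I) (hne : (typedQ G H A₁ I τ).Nonempty) :
    ((typedQ G H A₁ I τ).card : ℝ) ≤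
      Real.exp (100 * ((Fintype.card β : ℝ) + ((eIn G univ).card : ℝ))) *
        A₁ ^ (lowSum G τ + if hasHub τ then 0 else 1) *
        ((n : ℝ) ^ Fintype.card β * q ^ (eIn G univ).card) := by
  classical
  have hq0 : 0 < q := hp.std.q0
  have hA1 : (1 : ℝ) ≤ A₁ := by
    rw [hp.A₁eq]
    exact one_le_pow₀ (by norm_num)
  -- trees for every root
  have htree : ∀ z : β, ∃ (par : β → β) (r : β → ℕ), RootedT G z par r := by
    intro z
    obtain ⟨par, r, h1, h2⟩ := exists_par_rank (F := G) (I := univ) (x := z) (mem_univ z)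
      (fun D hD _ hne => by
        obtain ⟨u, hu, w, hw, huw⟩ := hconn D hD hne
        exact ⟨u, hu, w, by simp [hw], huw⟩)
    exact ⟨par, r, ⟨h1, fun v hv => ⟨(h2 v (mem_univ v) hv).2.1, (h2 v (mem_univ v) hv).2.2⟩⟩⟩
  choose par r hT using htree
  set v : ℕ := Fintype.card β with hv
  set e : ℕ := (eIn G univ).card with he
  have hve : v ≤ 2 * e := (vertices_le_darts hiso).trans darts_card_le
  have hv1 : 1 ≤ v := Fintype.card_pos
  have he1 : 1 ≤ e := by omega
  set u : ℕ := lowSum G τ + if hasHub τ then 0 else 1 with hu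
  obtain ⟨φ, hφ⟩ := hne
  have hY0 : 0 ≤ (n : ℝ) ^ v * q ^ e := by positivity
  have hAu : 0 ≤ A₁ ^ u := by positivity
  -- one root
  have hroot : ∀ z : β, BBQ G n q Δ A₁ τ z (par z) ≤
      2 * Real.exp 1 * (v : ℝ) * (4 : ℝ) ^ v * ((n : ℝ) ^ v * q ^ e) * Real.exp (v : ℝ) * Real.exp (e : ℝ) *
        ((16 * Real.exp 1) ^ e * Real.exp (64 * (e : ℝ)) * A₁ ^ u) := by
    intro z
    refine (BBQ_le (H := H) hG hV hp hφ (hT z)).trans ?_
    apply mul_le_mul_of_nonneg_left _ (by positivity)
    exact prod_WQ_le hG hV hp hiso hφ (hT z)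
  have hvn : (0 : ℝ) ≤ v := Nat.cast_nonneg _
  have hen : (0 : ℝ) ≤ e := Nat.cast_nonneg _
  have hen1 : (1 : ℝ) ≤ e := by exact_mod_cast he1
  have hconst : (v : ℝ) * (2 * Real.exp 1 * (v : ℝ) * (4 : ℝ) ^ v * Real.exp (v : ℝ) * Real.exp (e : ℝ) *
        ((16 * Real.exp 1) ^ e * Real.exp (64 * (e : ℝ)))) ≤ Real.exp (100 * ((v : ℝ) + (e : ℝ))) := by
    have hexp1 : (v : ℝ) ≤ Real.exp (v : ℝ) := by
      have := Real.add_one_le_exp (v : ℝ)
      linarith
    have h2e : 2 * Real.exp 1 ≤ Real.exp (2 * (e : ℝ)) := by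
      have h3 : Real.exp 2 = Real.exp 1 * Real.exp 1 := by
        rw [← Real.exp_add]; norm_num
      have h4 : (2 : ℝ) ≤ Real.exp 1 := by
        have := Real.add_one_le_exp (1 : ℝ)
        linarith
      have h5 : Real.exp 2 ≤ Real.exp (2 * (e : ℝ)) := Real.exp_le_exp.2 (by linarith)
      have h6 : (0 : ℝ) < Real.exp 1 := Real.exp_pos 1
      nlinarith
    have h4v : (4 : ℝ) ^ v ≤ Real.exp (2 * (v : ℝ)) := by
      have h3 : Real.exp (2 * (v : ℝ)) = (Real.exp 2) ^ v := by
        rw [← Real.exp_nat_mul]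
        congr 1
        ring
      rw [h3]
      refine pow_le_pow_left₀ (by norm_num) ?_ _
      have h4 : (2 : ℝ) ≤ Real.exp 1 := by
        have := Real.add_one_le_exp (1 : ℝ)
        linarith
      have h5 : Real.exp 2 = Real.exp 1 * Real.exp 1 := by
        rw [← Real.exp_add]; norm_num
      nlinarith
    have h16 : (16 * Real.exp 1) ^ e ≤ Real.exp (4 * (e : ℝ)) := by
      have h3 : Real.exp (4 * (e : ℝ)) = (Real.exp 4) ^ e := by
        rw [← Real.exp_nat_mul]
        congr 1
        ring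
      rw [h3]
      refine pow_le_pow_left₀ (by positivity) ?_ _
      have h4 : Real.exp 4 = Real.exp 1 * Real.exp 3 := by
        rw [← Real.exp_add]; norm_num
      have h5 : (16 : ℝ) ≤ Real.exp 3 := by
        have h6 : Real.exp 3 = Real.exp 1 ^ 3 := by
          rw [← Real.exp_nat_mul]
          norm_num
        have h7 : (2.7 : ℝ) ≤ Real.exp 1 := by
          have := Real.exp_one_gt_d9
          linarith
        rw [h6]
        have h8 := pow_le_pow_left₀ (by norm_num : (0:ℝ) ≤ 2.7) h7 3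
        norm_num at h8
        linarith
      rw [h4, mul_comm]
      exact mul_le_mul_of_nonneg_left h5 (Real.exp_pos 1).le
    calc (v : ℝ) * (2 * Real.exp 1 * (v : ℝ) * (4 : ℝ) ^ v * Real.exp (v : ℝ) * Real.exp (e : ℝ) *
          ((16 * Real.exp 1) ^ e * Real.exp (64 * (e : ℝ))))
        = (v : ℝ) * (v : ℝ) * (2 * Real.exp 1) * (4 : ℝ) ^ v * Real.exp (v : ℝ) * Real.exp (e : ℝ) *
          (16 * Real.exp 1) ^ e * Real.exp (64 * (e : ℝ)) := by ring
      _ ≤ Real.exp (v : ℝ) * Real.exp (v : ℝ) * Real.exp (2 * (e : ℝ)) * Real.exp (2 * (v : ℝ)) *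
            Real.exp (v : ℝ) * Real.exp (e : ℝ) * Real.exp (4 * (e : ℝ)) * Real.exp (64 * (e : ℝ)) := by
          gcongr
      _ = Real.exp (5 * (v : ℝ) + 71 * (e : ℝ)) := by
          simp only [← Real.exp_add]
          congr 1
          ring
      _ ≤ Real.exp (100 * ((v : ℝ) + (e : ℝ))) := Real.exp_le_exp.2 (by linarith)
  calc ((typedQ G H A₁ I τ).card : ℝ) ≤ ∑ z, BBQ G n q Δ A₁ τ z (par z) :=
        type_bound (H := H) hG hV hp G he1 par r hT τ
    _ ≤ ∑ _z : β, 2 * Real.exp 1 * (v : ℝ) * (4 : ℝ) ^ v * ((n : ℝ) ^ v * q ^ e) * Real.exp (v : ℝ) * Real.exp (e : ℝ) *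
        ((16 * Real.exp 1) ^ e * Real.exp (64 * (e : ℝ)) * A₁ ^ u) :=
        Finset.sum_le_sum fun z _ => hroot z
    _ = ((v : ℝ) * (2 * Real.exp 1 * (v : ℝ) * (4 : ℝ) ^ v * Real.exp (v : ℝ) * Real.exp (e : ℝ) *
          ((16 * Real.exp 1) ^ e * Real.exp (64 * (e : ℝ))))) * (A₁ ^ u * ((n : ℝ) ^ v * q ^ e)) := by
        rw [Finset.sum_const, Finset.card_univ, nsmul_eq_mul]
        ring
    _ ≤ Real.exp (100 * ((v : ℝ) + (e : ℝ))) * (A₁ ^ u * ((n : ℝ) ^ v * q ^ e)) :=
        mul_le_mul_of_nonneg_right hconst (mul_nonneg hAu hY0)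
    _ = _ := by ring

end Vale.Agent.Lib.P064W
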