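import Vale.Agent.Lib.P064W.Final
import Vale.Agent.Lib.P064X.XFinal

/-!
The range `n p_E ≤ n^(1/13)`: `w_thresholds` below `log n`, the bound of `x_thresholds` above.
-/

open Finset

namespace Vale.Agent.Lib.P064W

open Vale.Agent.Lib.P064 Vale.Agent.Lib.P064E Vale.Agent.Lib.P064U Vale.Agent.Lib.P064Q
open scoped Classical

/-- The thresholds for all `H` with `n p_E ≤ n^(1/13)`. -/
theorem w_wide :
    ∃ C : ℝ, 0 < C ∧ ∀ (n : ℕ) (V : Type) [Fintype V] (H : SimpleGraph V), 2 ≤ n →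
      Fintype.card V ≤ n → H ≠ ⊥ → (n : ℝ) * pE n H ≤ (n : ℝ) ^ (1 / 13 : ℝ) →
      pTilde n H ≤ C * max (pE n H) (1 / (n : ℝ)) * Real.log n ^ (3 / 10 : ℝ) ∧
      pc n H ≤ C * max (pE n H) (1 / (n : ℝ)) * Real.log n ^ (13 / 10 : ℝ) := by
  obtain ⟨C₀, hC₀, h0⟩ := pTilde_le_pE_log
  obtain ⟨C₁, hC₁, h1⟩ := pc_le_pE_log_sq
  obtain ⟨Cw, hCw, hw⟩ := w_thresholds
  obtain ⟨Cx, hCx, hx⟩ := x_thresholds
  refine ⟨Cw + 2 * Cx + 332 * C₀ + 332 * C₁, by positivity, ?_⟩
  intro n V _ H hn hV hH hwide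
  have hn2 : (2 : ℝ) ≤ n := by exact_mod_cast hn
  have hn0 : (0 : ℝ) < n := by linarith
  have hL0 : 0 < Real.log n := Real.log_pos (by linarith)
  have hP0 : 0 < pE n H := pE_pos hn hV hH
  set P := pE n H with hP
  set L := Real.log n with hL
  set M := max P (1 / (n : ℝ)) with hM
  have hPM : P ≤ M := le_max_left _ _
  have hM0 : 0 < M := lt_of_lt_of_le hP0 hPM
  set Y3 := L ^ (3 / 10 : ℝ) with hY3
  set Y13 := L ^ (13 / 10 : ℝ) with hY13
  have hY30 : 0 < Y3 := Real.rpow_pos_of_pos hL0 _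
  have hY130 : 0 < Y13 := Real.rpow_pos_of_pos hL0 _
  have hcw : Cw ≤ Cw + 2 * Cx + 332 * C₀ + 332 * C₁ := by
    nlinarith
  have hcx : 2 * Cx ≤ Cw + 2 * Cx + 332 * C₀ + 332 * C₁ := by
    nlinarith
  have hc0 : 332 * C₀ ≤ Cw + 2 * Cx + 332 * C₀ + 332 * C₁ := by
    nlinarith
  have hc1 : 332 * C₁ ≤ Cw + 2 * Cx + 332 * C₀ + 332 * C₁ := by
    nlinarith
  set C := Cw + 2 * Cx + 332 * C₀ + 332 * C₁ with hC
  by_cases hcase1 : (n : ℝ) * P ≤ L
  · obtain ⟨ha, hb⟩ := hw n V H hn hV hH hcase1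
    rw [← hP, ← hL, ← hM, ← hY3] at ha
    rw [← hP, ← hL, ← hM, ← hY13] at hb
    constructor
    · refine ha.trans ?_
      gcongr
    · refine hb.trans ?_
      gcongr
  push Not at hcase1
  by_cases hcase2 : 332 ≤ L
  · have hD0 : 0 < (n : ℝ) * P := by positivity
    have hD1 : 1 ≤ (n : ℝ) * P := by linarith
    have hY31 : 1 ≤ Y3 := Real.one_le_rpow (by linarith) (by norm_num)
    -- the logarithm of `D`
    set g := Real.log ((n : ℝ) * P) with hg
    have hg0 : 0 ≤ g := Real.log_nonneg hD1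
    have hg1 : g ≤ 1 / 13 * L := by
      have h2 := Real.log_le_log hD0 hwide
      rwa [Real.log_rpow hn0] at h2
    have hD2 : 1000 * ((n : ℝ) * P) ^ 2 ≤ n := by
      have h3 : (n : ℝ) * P = Real.exp g := (Real.exp_log hD0).symm
      have h4 : (n : ℝ) = Real.exp L := (Real.exp_log hn0).symm
      have h5 : (1000 : ℝ) ≤ Real.exp 7 := by
        have h6 : Real.exp 7 = Real.exp 1 ^ 7 := by
          rw [← Real.exp_nat_mul]
          norm_num
        rw [h6]
        have h7 : (2.7 : ℝ) ≤ Real.exp 1 := by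
          have := Real.exp_one_gt_d9
          linarith
        calc (1000 : ℝ) ≤ 2.7 ^ 7 := by norm_num
          _ ≤ Real.exp 1 ^ 7 := pow_le_pow_left₀ (by norm_num) h7 _
      calc 1000 * ((n : ℝ) * P) ^ 2 ≤ Real.exp 7 * (Real.exp g) ^ 2 := by
            rw [← h3]
            gcongr
        _ = Real.exp (7 + 2 * g) := by
            rw [← Real.exp_nat_mul, ← Real.exp_add]
            norm_num
        _ ≤ Real.exp L := Real.exp_le_exp.2 (by linarith)
        _ = n := h4.symm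
    obtain ⟨ha, hb⟩ := hx n V H hn hV hH hD1 hD2
    rw [← hP] at ha hb
    have hlogL : 0 ≤ Real.log L := Real.log_nonneg (by linarith)
    have hexpo : xExpo n P ≤ 3 / 10 * Real.log L := by
      unfold xExpo
      rw [← hL, ← hg]
      have hden : 0 < L - g - 2 := by linarith
      rw [div_le_iff₀ hden]
      have h8 : 16 / 5 * (g + 3) ≤ 3 / 10 * (L - g - 2) := by linarith
      nlinarith
    have hexp : Real.exp (xExpo n P) ≤ Y3 := by
      rw [hY3, Real.rpow_def_of_pos hL0]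
      apply Real.exp_le_exp.2
      linarith
    have hfrac : L / ((n : ℝ) * P) ≤ Y3 := by
      refine le_trans ?_ hY31
      rw [div_le_one hD0]
      exact hcase1.le
    have hsum : Real.exp (xExpo n P) + L / ((n : ℝ) * P) ≤ 2 * Y3 := by linarith
    have hsum0 : 0 ≤ Real.exp (xExpo n P) + L / ((n : ℝ) * P) := by positivity
    have hLY : L * Y3 = Y13 := by
      have h9 : L ^ (1 + 3 / 10 : ℝ) = L ^ (1 : ℝ) * L ^ (3 / 10 : ℝ) := Real.rpow_add hL0 _ _
      rw [Real.rpow_one] at h9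
      rw [hY3, hY13, ← h9]
      norm_num
    constructor
    · calc pTilde n H ≤ Cx * P * (Real.exp (xExpo n P) + L / ((n : ℝ) * P)) := ha
        _ ≤ Cx * P * (2 * Y3) := by gcongr
        _ = (2 * Cx) * P * Y3 := by ring
        _ ≤ C * M * Y3 := by gcongr
    · calc pc n H ≤ Cx * P * L * (Real.exp (xExpo n P) + L / ((n : ℝ) * P)) := hb
        _ ≤ Cx * P * L * (2 * Y3) := by gcongr
        _ = (2 * Cx) * P * (L * Y3) := by ring
        _ = (2 * Cx) * P * Y13 := by rw [hLY]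
        _ ≤ C * M * Y13 := by gcongr
  · push Not at hcase2
    set Y7 := L ^ (7 / 10 : ℝ) with hY7
    have hY70 : 0 < Y7 := Real.rpow_pos_of_pos hL0 _
    have hY7le : Y7 ≤ 332 := by
      calc Y7 ≤ (332 : ℝ) ^ (7 / 10 : ℝ) := Real.rpow_le_rpow hL0.le hcase2.le (by norm_num)
        _ ≤ (332 : ℝ) ^ (1 : ℝ) := Real.rpow_le_rpow_of_exponent_le (by norm_num) (by norm_num)
        _ = 332 := Real.rpow_one _
    have hL37 : L = Y3 * Y7 := by
      have h9 : L ^ (3 / 10 + 7 / 10 : ℝ) = L ^ (3 / 10 : ℝ) * L ^ (7 / 10 : ℝ) :=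
        Real.rpow_add hL0 _ _
      rw [hY3, hY7, ← h9]
      norm_num
    have hL137 : L ^ 2 = Y13 * Y7 := by
      have h9 : L ^ (13 / 10 + 7 / 10 : ℝ) = L ^ (13 / 10 : ℝ) * L ^ (7 / 10 : ℝ) :=
        Real.rpow_add hL0 _ _
      rw [hY13, hY7, ← h9]
      have h10 : (13 / 10 + 7 / 10 : ℝ) = ((2 : ℕ) : ℝ) := by norm_num
      rw [h10, Real.rpow_natCast]
    have ha := h0 n hn V H hV hH
    have hb := h1 n hn V H hV hH
    rw [← hP, ← hL] at ha hb
    constructor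
    · calc pTilde n H ≤ C₀ * P * L := ha
        _ = C₀ * P * (Y3 * Y7) := by rw [← hL37]
        _ ≤ C₀ * P * (Y3 * 332) := by gcongr
        _ = (332 * C₀) * P * Y3 := by ring
        _ ≤ C * M * Y3 := by gcongr
    · calc pc n H ≤ C₁ * P * L ^ 2 := hb
        _ = C₁ * P * (Y13 * Y7) := by rw [hL137]
        _ ≤ C₁ * P * (Y13 * 332) := by gcongr
        _ = (332 * C₁) * P * Y13 := by ring
        _ ≤ C * M * Y13 := by gcongr

end Vale.Agent.Lib.P064W
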